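import Vale.Agent.P103.Defs

/-! Basic properties of the bump functions and fibre functions. -/

open Real Complex ComplexConjugate

noncomputable section

namespace Vale.Agent.P103

/-! ### circle bumps -/

lemma ang_add (a b : ℝ) : ang (a + b) = ang a * ang b := by
  simp [ang, mul_add, Circle.exp_add]

lemma ang_sub_six (θ : ℝ) (q : ℤ) : ang (θ - 6 * q) = ang θ := by
  unfold ang
  rw [Circle.exp_eq_exp]
  exact ⟨-q, by push_cast; ring⟩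

lemma cb_ang (c r₁ r₂ θ : ℝ) : cb c r₁ r₂ (ang θ) =
    Real.smoothTransition ((Real.cos (π / 3 * (θ - c)) - Real.cos (π / 3 * r₂)) /
      (Real.cos (π / 3 * r₁) - Real.cos (π / 3 * r₂))) := by
  unfold cb
  congr 3
  simp only [ang, Circle.coe_exp]
  rw [← Complex.exp_conj, ← Complex.exp_add]
  have : ((π / 3 * θ : ℝ) : ℂ) * I + conj (((π / 3 * c : ℝ) : ℂ) * I) =
      ((π / 3 * (θ - c) : ℝ) : ℂ) * I := by
    simp only [map_mul, Complex.conj_ofReal, Complex.conj_I]; push_cast; ring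
  rw [this, Complex.exp_ofReal_mul_I_re]

lemma cb_nonneg (c r₁ r₂ : ℝ) (w : ℂ) : 0 ≤ cb c r₁ r₂ w := Real.smoothTransition.nonneg _
lemma cb_le_one (c r₁ r₂ : ℝ) (w : ℂ) : cb c r₁ r₂ w ≤ 1 := Real.smoothTransition.le_one _

lemma cos_gap {r₁ r₂ : ℝ} (h0 : 0 ≤ r₁) (h12 : r₁ < r₂) (h3 : r₂ ≤ 3) :
    0 < Real.cos (π / 3 * r₁) - Real.cos (π / 3 * r₂) := by
  have hp := Real.pi_pos
  have := Real.cos_lt_cos_of_nonneg_of_le_pi (x := π / 3 * r₁) (y := π / 3 * r₂)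
    (by positivity) (by nlinarith) (by nlinarith)
  linarith

lemma cb_one {c r₁ r₂ θ : ℝ} (h0 : 0 ≤ r₁) (h12 : r₁ < r₂) (h3 : r₂ ≤ 3) (h : |θ - c| ≤ r₁) :
    cb c r₁ r₂ (ang θ) = 1 := by
  rw [cb_ang]
  apply Real.smoothTransition.one_of_one_le
  have hp := Real.pi_pos
  rw [le_div_iff₀ (cos_gap h0 h12 h3)]
  have h1 : Real.cos (π / 3 * (θ - c)) = Real.cos (π / 3 * |θ - c|) := by
    rw [← Real.cos_abs (π / 3 * (θ - c)), abs_mul, abs_of_pos (by positivity : 0 < π / 3)]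
  have := Real.cos_le_cos_of_nonneg_of_le_pi (x := π / 3 * |θ - c|) (y := π / 3 * r₁)
    (by positivity) (by nlinarith) (by nlinarith)
  linarith

lemma cb_zero {c r₁ r₂ θ : ℝ} (h0 : 0 ≤ r₁) (h12 : r₁ < r₂) (h3 : r₂ ≤ 3) (h : r₂ ≤ |θ - c|)
    (h' : |θ - c| ≤ 6 - r₂) : cb c r₁ r₂ (ang θ) = 0 := by
  rw [cb_ang]
  apply Real.smoothTransition.zero_of_nonpos
  have hp := Real.pi_pos
  apply div_nonpos_of_nonpos_of_nonneg _ (cos_gap h0 h12 h3).le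
  have h1 : Real.cos (π / 3 * (θ - c)) = Real.cos (π / 3 * |θ - c|) := by
    rw [← Real.cos_abs (π / 3 * (θ - c)), abs_mul, abs_of_pos (by positivity : 0 < π / 3)]
  rw [h1]
  rcases le_total |θ - c| 3 with h4 | h4
  · have := Real.cos_le_cos_of_nonneg_of_le_pi (x := π / 3 * r₂) (y := π / 3 * |θ - c|)
      (by nlinarith) (by nlinarith) (by nlinarith)
    linarith
  · have h5 : Real.cos (π / 3 * |θ - c|) = Real.cos (π / 3 * (6 - |θ - c|)) := by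
      rw [show π / 3 * (6 - |θ - c|) = 2 * π - π / 3 * |θ - c| by ring, Real.cos_two_pi_sub]
    have := Real.cos_le_cos_of_nonneg_of_le_pi (x := π / 3 * r₂) (y := π / 3 * (6 - |θ - c|))
      (by nlinarith) (by nlinarith) (by nlinarith)
    linarith

lemma bA_sub (θ : ℝ) (q : ℤ) : bA (θ - 6 * q) = bA θ := by simp only [bA, ang_sub_six]
lemma bk_sub (θ : ℝ) (q : ℤ) : bk (θ - 6 * q) = bk θ := by simp only [bk, ang_sub_six]
lemma bkp_sub (θ : ℝ) (q : ℤ) : bkp (θ - 6 * q) = bkp θ := by simp only [bkp, ang_sub_six]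
lemma bchi_sub (j : Fin 2) (θ : ℝ) (q : ℤ) : bchi j (θ - 6 * q) = bchi j θ := by
  simp only [bchi, ang_sub_six]
lemma bchip_sub (j : Fin 2) (θ : ℝ) (q : ℤ) : bchip j (θ - 6 * q) = bchip j θ := by
  simp only [bchip, ang_sub_six]

lemma bA_nonneg (θ : ℝ) : 0 ≤ bA θ := cb_nonneg _ _ _ _
lemma bA_le_one (θ : ℝ) : bA θ ≤ 1 := cb_le_one _ _ _ _
lemma ck_nonneg (w : ℂ) : 0 ≤ ck w := sub_nonneg.2 (cb_le_one _ _ _ _)
lemma ckp_nonneg (w : ℂ) : 0 ≤ ckp w := sub_nonneg.2 (cb_le_one _ _ _ _)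
lemma ckp_le_one (w : ℂ) : ckp w ≤ 1 := sub_le_self _ (cb_nonneg _ _ _ _)
lemma bk_nonneg (θ : ℝ) : 0 ≤ bk θ := ck_nonneg _
lemma bchi_nonneg (j : Fin 2) (θ : ℝ) : 0 ≤ bchi j θ := cb_nonneg _ _ _ _

lemma cj_ge (j : Fin 2) : 5 / 2 ≤ cj j := by fin_cases j <;> norm_num [cj]
lemma cj_le (j : Fin 2) : cj j ≤ 3 := by fin_cases j <;> norm_num [cj]
lemma cj_zero : cj 0 = 5 / 2 := by norm_num [cj]
lemma cj_one : cj 1 = 3 := by norm_num [cj]

lemma bA_one {θ : ℝ} (h1 : 4 ≤ θ) (h2 : θ ≤ 5) : bA θ = 1 :=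
  cb_one (by norm_num) (by norm_num) (by norm_num) (by rw [abs_le]; constructor <;> linarith)
lemma bA_zero_left {θ : ℝ} (h1 : -1 / 2 ≤ θ) (h2 : θ ≤ 7 / 2) : bA θ = 0 :=
  cb_zero (by norm_num) (by norm_num) (by norm_num)
    (by rw [abs_of_nonpos (by linarith)]; linarith) (by rw [abs_of_nonpos (by linarith)]; linarith)
lemma bA_zero_right {θ : ℝ} (h1 : 11 / 2 ≤ θ) (h2 : θ ≤ 19 / 2) : bA θ = 0 :=
  cb_zero (by norm_num) (by norm_num) (by norm_num)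
    (by rw [abs_of_nonneg (by linarith)]; linarith) (by rw [abs_of_nonneg (by linarith)]; linarith)
lemma bk_one {θ : ℝ} (h1 : 3 / 2 ≤ θ) (h2 : θ ≤ 11 / 2) : bk θ = 1 := by
  unfold bk ck
  rw [cb_zero (by norm_num) (by norm_num) (by norm_num)
    (by rw [abs_of_nonneg (by linarith)]; linarith) (by rw [abs_of_nonneg (by linarith)]; linarith)]
  norm_num
lemma bk_zero' {θ : ℝ} (h1 : -1 / 4 ≤ θ) (h2 : θ ≤ 5 / 4) : bk θ = 0 := by
  unfold bk ck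
  rw [cb_one (by norm_num) (by norm_num) (by norm_num) (by rw [abs_le]; constructor <;> linarith)]
  norm_num
lemma bk_zero {θ : ℝ} (h1 : 23 / 4 ≤ θ) (h2 : θ ≤ 29 / 4) : bk θ = 0 := by
  rw [← bk_sub θ 1]; apply bk_zero' <;> push_cast <;> linarith
lemma bkp_one {θ : ℝ} (h1 : 5 / 4 ≤ θ) (h2 : θ ≤ 23 / 4) : bkp θ = 1 := by
  unfold bkp ckp
  rw [cb_zero (by norm_num) (by norm_num) (by norm_num)
    (by rw [abs_of_nonneg (by linarith)]; linarith) (by rw [abs_of_nonneg (by linarith)]; linarith)]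
  norm_num
lemma bkp_zero' {θ : ℝ} (h1 : 0 ≤ θ) (h2 : θ ≤ 1) : bkp θ = 0 := by
  unfold bkp ckp
  rw [cb_one (by norm_num) (by norm_num) (by norm_num) (by rw [abs_le]; constructor <;> linarith)]
  norm_num
lemma bkp_zero {θ : ℝ} (h1 : 6 ≤ θ) (h2 : θ ≤ 7) : bkp θ = 0 := by
  rw [← bkp_sub θ 1]; apply bkp_zero' <;> push_cast <;> linarith
lemma bchi_one {j : Fin 2} {θ : ℝ} (h : |θ - cj j| ≤ 1 / 4) : bchi j θ = 1 :=
  cb_one (by norm_num) (by norm_num) (by norm_num) h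
lemma bchip_zero {j : Fin 2} {θ : ℝ} (h : 1 / 2 ≤ |θ - cj j|) (h' : |θ - cj j| ≤ 11 / 2) :
    bchip j θ = 0 :=
  cb_zero (by norm_num) (by norm_num) (by norm_num) h (by linarith)
lemma bchi_zero {j : Fin 2} {θ : ℝ} (h : 1 / 3 ≤ |θ - cj j|) (h' : |θ - cj j| ≤ 11 / 2) :
    bchi j θ = 0 :=
  cb_zero (by norm_num) (by norm_num) (by norm_num) h (by linarith)
lemma bchip_of_bchi {j : Fin 2} {θ : ℝ} (h' : |θ - cj j| ≤ 11 / 2) (h : bchi j θ ≠ 0) :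
    bchip j θ = 1 := by
  by_cases h1 : |θ - cj j| ≤ 1 / 3
  · exact cb_one (by norm_num) (by norm_num) (by norm_num) h1
  · exact absurd (bchi_zero (not_le.1 h1).le h') h
/-- no writing to the left of the window -/
lemma chi_zero_left {j : Fin 2} {θ : ℝ} (h1 : -2 ≤ θ) (h2 : θ ≤ cj j - 1 / 2) :
    bchi j θ = 0 ∧ bchip j θ = 0 := by
  have := cj_le j
  have e : |θ - cj j| = cj j - θ := by rw [abs_of_nonpos (by linarith)]; ring
  exact ⟨bchi_zero (by linarith) (by linarith), bchip_zero (by linarith) (by linarith)⟩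
/-- no writing to the right of the window -/
lemma chi_zero_right {j : Fin 2} {θ : ℝ} (h1 : cj j + 1 / 2 ≤ θ) (h2 : θ ≤ 8) :
    bchi j θ = 0 ∧ bchip j θ = 0 := by
  have := cj_ge j
  have e : |θ - cj j| = θ - cj j := by rw [abs_of_nonneg (by linarith)]
  exact ⟨bchi_zero (by linarith) (by linarith), bchip_zero (by linarith) (by linarith)⟩

lemma of_bA_ne_zero {θ : ℝ} (h : bA θ ≠ 0) :
    bk θ = 1 ∧ bkp θ = 1 ∧ ∀ j, bchi j θ = 0 ∧ bchip j θ = 0 := by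
  set q : ℤ := ⌊(θ + 1 / 2) / 6⌋
  have h1 : (q : ℝ) ≤ (θ + 1 / 2) / 6 := Int.floor_le _
  have h2 : (θ + 1 / 2) / 6 < q + 1 := Int.lt_floor_add_one _
  rw [← bA_sub θ q] at h
  have h3 : 7 / 2 < θ - 6 * q := by
    by_contra hh; exact h (bA_zero_left (by linarith) (by linarith))
  rw [← bk_sub θ q, ← bkp_sub θ q]
  refine ⟨bk_one (by linarith) (by linarith), bkp_one (by linarith) (by linarith), fun j => ?_⟩
  rw [← bchi_sub j θ q, ← bchip_sub j θ q]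
  have := cj_le j
  exact chi_zero_right (by linarith) (by linarith)

/-! ### fibre functions -/

lemma b1_one {x : ℂ} (h : ‖x‖ ≤ 1 / 4) : b1 x = 1 :=
  b1.one_of_mem_closedBall (by simpa [b1] using h)
lemma b1_zero {x : ℂ} (h : 1 / 2 ≤ ‖x‖) : b1 x = 0 :=
  b1.zero_of_le_dist (by simpa [b1] using h)
lemma b2_one {x : ℂ} (h : ‖x‖ ≤ 1) : b2 x = 1 :=
  b2.one_of_mem_closedBall (by simpa [b2] using h)

lemma WW_nonneg (x : Fin 2 → ℂ) : 0 ≤ WW x := mul_nonneg b1.nonneg b1.nonneg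
lemma WW_le_one (x : Fin 2 → ℂ) : WW x ≤ 1 := mul_le_one₀ b1.le_one b1.nonneg b1.le_one
lemma WW_one {x : Fin 2 → ℂ} (h : ∀ j, ‖x j‖ ≤ 1 / 4) : WW x = 1 := by
  rw [WW, b1_one (h 0), b1_one (h 1), one_mul]
lemma WW_zero {x : Fin 2 → ℂ} {j : Fin 2} (h : 1 / 2 ≤ ‖x j‖) : WW x = 0 := by
  fin_cases j
  · rw [WW, b1_zero (x := x 0) h, zero_mul]
  · rw [WW, b1_zero (x := x 1) h, mul_zero]

lemma pp_zero {x : ℂ} (h : ‖x‖ ≤ 1 / 4) : pp x = 0 := by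
  simp [pp, b1_one h]

lemma kt_zero {n : ℕ} {s : ℝ} {x : ℂ} (h : ‖x‖ ≤ 1 / 4) : kt n (s, x) = 0 := by
  simp [kt, pp_zero h]

lemma K1_zero {s : ℝ} {x : ℂ} (h : ‖x‖ ≤ 1 / 4) : K1 (s, x) = 0 := by
  simp [K1, kt_zero h]

lemma KK_zero {s : Fin 2 → ℝ} {x : Fin 2 → ℂ} (h : ∀ j, ‖x j‖ ≤ 1 / 4) : KK s x = 0 := by
  rw [KK, K1_zero (h 0), K1_zero (h 1), add_zero]

lemma psi_pow (n m : ℕ) (h : n ≠ m) : psi ((2 : ℝ) ^ (n + 1) * (1 / 2) ^ (m + 1)) = 0 := by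
  apply psi.zero_of_le_dist
  simp only [psi, Real.dist_eq]
  rcases lt_or_gt_of_ne h with h | h
  · obtain ⟨d, rfl⟩ := Nat.exists_eq_add_of_lt h
    have e : (2 : ℝ) ^ (n + 1) * (1 / 2) ^ (n + d + 1 + 1) = (1 / 2) ^ (d + 1) := by
      rw [show n + d + 1 + 1 = (n + 1) + (d + 1) by ring, pow_add (1 / 2 : ℝ), ← mul_assoc,
        ← mul_pow]; norm_num
    have : (1 / 2 : ℝ) ^ (d + 1) ≤ 1 / 2 := by
      rw [pow_succ]; have : (1 / 2 : ℝ) ^ d ≤ 1 := pow_le_one₀ (by norm_num) (by norm_num)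
      linarith
    rw [e, abs_of_nonpos (by linarith)]; linarith
  · obtain ⟨d, rfl⟩ := Nat.exists_eq_add_of_lt h
    have e : (2 : ℝ) ^ (m + d + 1 + 1) * (1 / 2) ^ (m + 1) = 2 ^ (d + 1) := by
      rw [show m + d + 1 + 1 = (d + 1) + (m + 1) by ring, pow_add (2 : ℝ), mul_assoc,
        ← mul_pow]; norm_num
    have : (2 : ℝ) ≤ 2 ^ (d + 1) := by
      rw [pow_succ]; have : (1 : ℝ) ≤ 2 ^ d := one_le_pow₀ (by norm_num)
      linarith
    rw [e, abs_of_nonneg (by linarith)]; linarith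

lemma K1_pow (m : ℕ) (x : ℂ) :
    K1 ((1 / 2) ^ (m + 1), x) = (((1 / 4) ^ m : ℝ) : ℂ) * pp x ^ 2 ^ m := by
  unfold K1
  rw [tsum_eq_single m]
  · have : psi ((2 : ℝ) ^ (m + 1) * (1 / 2) ^ (m + 1)) = 1 := by
      rw [← mul_pow]; norm_num
      exact psi.one_of_mem_closedBall (Metric.mem_closedBall_self psi.rIn_pos.le)
    simp only [kt, this, mul_one]
  · intro n hn
    simp only [kt, psi_pow n m hn, mul_zero, Complex.ofReal_zero, zero_mul]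

/-- reading a slot with timer `2^-(m+1)` and phase `u` -/
lemma K1_read (m : ℕ) (x u : ℂ) (hx : x = (‖x‖ : ℂ) * u) (hx1 : ‖x‖ ≤ 1) :
    ∃ ρ : ℝ, 0 ≤ ρ ∧ (1 / 2 ≤ ‖x‖ → (1 / 4) ^ m ≤ ρ) ∧
      K1 ((1 / 2) ^ (m + 1), x) = (ρ : ℂ) * u ^ 2 ^ m := by
  have hb : 0 ≤ (1 - b1 x) * b2 x := mul_nonneg (sub_nonneg.2 b1.le_one) b2.nonneg
  have hp : pp x = (((1 - b1 x) * b2 x : ℝ) : ℂ) * u := by
    by_cases h0 : x = 0
    · rw [pp_zero (by rw [h0]; norm_num), b1_one (by rw [h0]; norm_num)]; simp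
    · have : (‖x‖ : ℂ) ≠ 0 := by simpa using h0
      unfold pp
      nth_rewrite 4 [hx]
      push_cast; field_simp
  refine ⟨(1 / 4) ^ m * ((1 - b1 x) * b2 x) ^ 2 ^ m, by positivity, fun h => ?_, ?_⟩
  · rw [b1_zero h, b2_one hx1]; simp
  · rw [K1_pow, hp, mul_pow]; push_cast; ring

lemma sat_eq (u : ℂ) : ∃ r : ℝ, 0 < r ∧ sat u = (r : ℂ) * u :=
  ⟨(√(1 + ‖u‖ ^ 2))⁻¹, by positivity, rfl⟩

@[simp] lemma sat_zero : sat 0 = 0 := by simp [sat]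

lemma norm_sat (u : ℂ) : ‖sat u‖ = ‖u‖ / √(1 + ‖u‖ ^ 2) := by
  rw [sat, norm_mul, Complex.norm_real, Real.norm_eq_abs, abs_of_nonneg (by positivity)]
  field_simp

lemma norm_sat_lt (u : ℂ) : ‖sat u‖ < 1 := by
  rw [norm_sat, div_lt_one (by positivity)]
  apply Real.lt_sqrt_of_sq_lt; linarith

lemma norm_sat_ge (u : ℂ) : min (‖u‖ / 2) (1 / 2) ≤ ‖sat u‖ := by
  rw [norm_sat, le_div_iff₀ (by positivity)]
  have h0 := norm_nonneg u
  rcases le_total ‖u‖ 1 with h | h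
  · have : √(1 + ‖u‖ ^ 2) ≤ 2 := by
      apply Real.sqrt_le_iff.2; constructor <;> nlinarith
    calc _ ≤ ‖u‖ / 2 * 2 := mul_le_mul (min_le_left _ _) this (by positivity) (by positivity)
      _ = _ := by ring
  · have : √(1 + ‖u‖ ^ 2) ≤ 2 * ‖u‖ := by
      apply Real.sqrt_le_iff.2; constructor <;> nlinarith
    calc _ ≤ 1 / 2 * (2 * ‖u‖) :=
          mul_le_mul (min_le_right _ _) this (by positivity) (by positivity)
      _ = _ := by ring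

end Vale.Agent.P103
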