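import Vale.Agent.P103.Defs

/-! Part Cones: explicit singular simplices on the sphere. -/

noncomputable section

namespace Vale.Agent.P103

namespace Cones

theorem face_self {n : ℕ} (i : Fin (n + 2)) (t : Δ n) : face i t i = 0 := by
  change FunOnFinite.linearMap ℝ ℝ i.succAbove t i = 0
  rw [FunOnFinite.linearMap_apply_apply]
  simp

theorem face_succ {n : ℕ} (i : Fin (n + 2)) (t : Δ n) (j : Fin (n + 1)) :
    face i t (i.succAbove j) = t j := by
  change FunOnFinite.linearMap ℝ ℝ i.succAbove t _ = _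
  rw [FunOnFinite.linearMap_apply_apply]
  simp [Finset.filter_eq']

def rr (a : ℝ) : ℝ := min 1 (max 0 (1 - 2 * a))
def mm (a : ℝ) : ℝ := max (1 - a) (1 / 2)
def ph (a s : ℝ) : ℂ := Complex.exp (2 * Real.pi * Complex.I * ((s / mm a : ℝ) : ℂ))

theorem rr_nonneg (a : ℝ) : 0 ≤ rr a := le_min zero_le_one (le_max_left _ _)
theorem rr_sq (a : ℝ) : 0 ≤ 1 - rr a ^ 2 := by
  have : rr a ≤ 1 := min_le_left _ _
  nlinarith [rr_nonneg a]
theorem mm_ne (a : ℝ) : mm a ≠ 0 := (lt_of_lt_of_le (by norm_num) (le_max_right _ _)).ne'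
theorem norm_ph (a s : ℝ) : ‖ph a s‖ = 1 := by
  rw [ph, show (2 * Real.pi * Complex.I * ((s / mm a : ℝ) : ℂ)) =
    ((2 * Real.pi * (s / mm a) : ℝ) : ℂ) * Complex.I by push_cast; ring]
  exact Complex.norm_exp_ofReal_mul_I _
theorem norm_rp (a s : ℝ) : ‖(rr a : ℂ) * ph a s‖ = rr a := by
  rw [norm_mul, norm_ph, mul_one, Complex.norm_real, Real.norm_of_nonneg (rr_nonneg a)]

def sg (e : Bool) : ℝ := if e then 1 else -1

def pt (e : Bool) (a s : ℝ) : S2 :=
  ⟨mk3 (rr a * ph a s) (sg e * √(1 - rr a ^ 2)), by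
    rw [mem_S2_iff, cz_mk3, ch_mk3, norm_rp, mul_pow, Real.sq_sqrt (rr_sq a)]
    cases e <;> simp [sg]⟩

theorem continuous_pt {X : Type} [TopologicalSpace X] (e : Bool) {a s : X → ℝ} (ha : Continuous a)
    (hs : Continuous s) : Continuous fun x => pt e (a x) (s x) := by
  have h1 : Continuous fun x => s x / mm (a x) :=
    hs.div (by unfold mm; fun_prop) fun x => mm_ne _
  refine Continuous.subtype_mk (continuous_mk3 ?_ ?_) _
  · unfold ph rr; fun_prop
  · unfold rr; fun_prop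

theorem pt_eq (e : Bool) (k : ℕ) {a a' s s' : ℝ} (ha : a' = a) (h : s' = s + k * (1 - a)) :
    pt e a' s' = pt e a s := by
  subst ha h
  refine Subtype.ext (congrArg (mk3 · _) ?_)
  rcases le_total (1 / 2) a' with k1 | k1
  · rw [show rr a' = 0 by rw [rr, max_eq_left (by linarith), min_eq_right zero_le_one]]; simp
  · have m : mm a' = 1 - a' := max_eq_left (by linarith)
    rw [ph, ph, add_div, ← m, mul_div_cancel_right₀ _ (mm_ne a'), Complex.ofReal_add, mul_add,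
      Complex.exp_add, mul_comm _ ((k : ℝ) : ℂ), Complex.ofReal_natCast,
      Complex.exp_nat_mul_two_pi_mul_I, mul_one]

theorem pt_zero (e : Bool) (s : ℝ) :
    (pt e 0 s : E3) = mk3 (Complex.exp (2 * Real.pi * Complex.I * (s : ℂ))) 0 := by
  have m : mm 0 = 1 := by norm_num [mm]
  simp [pt, rr, ph, m]

theorem pt_zero' {a s : ℝ} (h : a = 0) : pt true a s = pt false a s :=
  h ▸ Subtype.ext ((pt_zero _ _).trans (pt_zero _ _).symm)

theorem cont {n : ℕ} (i : Fin (n + 1)) : Continuous fun t : Δ n => t i :=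
  (continuous_apply i).comp continuous_subtype_val

def c2 (e : Bool) (k : ℕ) : C(Δ 2, S2) :=
  ⟨fun t => pt e (t 0) (k * t 2), continuous_pt e (cont 0) (continuous_const.mul (cont 2))⟩

def c3 (e : Bool) : C(Δ 3, S2) :=
  ⟨fun t => pt e (t 0) (t 2 + 2 * t 3),
    continuous_pt e (cont 0) ((cont 2).add (continuous_const.mul (cont 3)))⟩

theorem c2_face (e : Bool) (k : ℕ) : (c2 e k).comp (face 1) = (c2 e k).comp (face 2) := by
  refine ContinuousMap.ext fun t => pt_eq e k ((face_succ 1 t 0).trans (face_succ 2 t 0).symm) ?_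
  rw [show face 1 t 2 = t 1 from face_succ 1 t 1, face_self,
    show face 2 t 0 = t 0 from face_succ 2 t 0, ← stdSimplex.add_eq_one t]
  ring

theorem pair (k : ℕ) : IsPair (c2 true k) (c2 false k) :=
  ⟨c2_face _ _, c2_face _ _, ContinuousMap.ext fun t => pt_zero' (face_self 0 t)⟩

theorem c3_1 (e : Bool) : (c3 e).comp (face 1) = c2 e 1 := by
  refine ContinuousMap.ext fun t => pt_eq e 1 (face_succ 1 t 0) ?_
  rw [show face 1 t 2 = t 1 from face_succ 1 t 1, show face 1 t 3 = t 2 from face_succ 1 t 2,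
    ← stdSimplex.sum_eq_one t, Fin.sum_univ_three]
  push_cast; ring

theorem c3_2 (e : Bool) : (c3 e).comp (face 2) = c2 e 2 := by
  refine ContinuousMap.ext fun t => pt_eq e 0 (face_succ 2 t 0) ?_
  rw [face_self, show face 2 t 3 = t 2 from face_succ 2 t 2]
  push_cast; ring

theorem c3_3 (e : Bool) : (c3 e).comp (face 3) = c2 e 1 := by
  refine ContinuousMap.ext fun t => pt_eq e 0 (face_succ 3 t 0) ?_
  rw [face_self, show face 3 t 2 = t 2 from face_succ 3 t 2]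
  push_cast; ring

def ww (s : ℝ) (y : S2) : E3 := mk3 ((((1 - s) * ‖cz y‖ + s : ℝ) : ℂ) * cz y) ((2 - s) * ch y)

theorem ww_ne {s : ℝ} (hs : s ≤ 1) (y : S2) : ww s y ≠ 0 := by
  intro h
  have h1 : (2 - s) * ch y = 0 := by
    have := congrArg ch h
    rwa [ww, ch_mk3] at this
  have h2 : ch y = 0 := (mul_eq_zero.1 h1).resolve_left (by linarith)
  have h3 := S2_eq y
  rw [h2] at h3
  have h4 : ‖cz y‖ = 1 := by nlinarith [norm_nonneg (cz y)]
  have h5 := congrArg cz h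
  rw [ww, cz_mk3, h4, show cz 0 = 0 from rfl] at h5
  have : cz y = 0 := by simpa using h5
  rw [this] at h4
  simp at h4

theorem cont_ww : Continuous fun p : unitInterval × S2 => ‖ww p.1 p.2‖⁻¹ • ww p.1 p.2 :=
  have h : Continuous fun p : unitInterval × S2 => ww p.1 p.2 := by unfold ww; fun_prop
  (h.norm.inv₀ fun p => norm_ne_zero_iff.2 (ww_ne p.1.2.2 p.2)).smul h

theorem mem_ww (p : unitInterval × S2) :
    ‖ww p.1 p.2‖⁻¹ • ww p.1 p.2 ∈ Metric.sphere (0 : E3) 1 := by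
  rw [mem_sphere_zero_iff_norm]; exact norm_smul_inv_norm (ww_ne p.1.2.2 p.2)

def HT : C(unitInterval × S2, S2) :=
  ⟨fun p => ⟨‖ww p.1 p.2‖⁻¹ • ww p.1 p.2, mem_ww p⟩, cont_ww.subtype_mk mem_ww⟩

def rmap : C(S2, S2) := HT.comp ⟨fun y => (0, y), by fun_prop⟩

theorem rmap_hom : rmap.Homotopic (ContinuousMap.id S2) :=
  ⟨⟨HT, fun _ => rfl, fun y => Subtype.ext (by
    have : ww 1 y = y := by simp [ww, show (2 : ℝ) - 1 = 1 by norm_num, mk3_cz_ch]
    change ‖ww 1 y‖⁻¹ • ww 1 y = y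
    rw [this, mem_sphere_zero_iff_norm.1 y.2, inv_one, one_smul])⟩⟩

theorem rmap_eq (y : S2) : (rmap y : E3) = (1 + ch y ^ 2)⁻¹ • mk3 (‖cz y‖ * cz y) (2 * ch y) := by
  have e : ww 0 y = mk3 (‖cz y‖ * cz y) (2 * ch y) := by simp [ww]
  have n : ‖ww 0 y‖ = 1 + ch y ^ 2 := by
    refine (pow_left_inj₀ (norm_nonneg _) (by positivity) two_ne_zero).1 ?_
    rw [e, norm_sq_E3, cz_mk3, ch_mk3, norm_mul, Complex.norm_real, norm_norm]
    linear_combination (‖cz y‖ ^ 2 + 1 - ch y ^ 2) * S2_eq y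
  change ‖ww 0 y‖⁻¹ • ww 0 y = _
  rw [n, e]

theorem psi_eq (y : E3) : Psi y 0 = (1 + ch y ^ 2)⁻¹ • mk3 (cz y ^ 2) (2 * ch y) := by
  have e : (1 + ch y) ^ 2 + DD y 0 = 2 * (1 + ch y ^ 2) := by simp [DD]; ring
  have n : (1 + ch y ^ 2) ≠ 0 := by positivity
  have n' : (1 + (ch y : ℂ) ^ 2) ≠ 0 := by exact_mod_cast n
  refine ext3 ?_ ?_
  · rw [Psi, e, cz_smul, cz_smul, cz_mk3, cz_mk3]; push_cast; field_simp; ring
  · rw [Psi, e, ch_smul, ch_smul, ch_mk3, ch_mk3]; simp only [DD]; field_simp; simp; ring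

theorem g_eq {g : C(S2, S2)} (hg : ∀ y, (g y : E3) = Psi y 0) (e : Bool) :
    g.comp (c2 e 1) = rmap.comp (c2 e 2) := by
  refine ContinuousMap.ext fun t => Subtype.ext ?_
  rw [ContinuousMap.comp_apply, ContinuousMap.comp_apply, hg, psi_eq, rmap_eq]
  simp only [c2, pt, ContinuousMap.coe_mk, cz_mk3, ch_mk3, norm_rp]
  congr 2
  rw [mul_pow, ph, ph, ← Complex.exp_nat_mul, sq, mul_assoc]
  congr 3
  push_cast; ring

end Cones

open Cones

theorem exists_cones (g : C(S2, S2)) (hg : ∀ y, (g y : E3) = Psi y 0) :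
    ∃ (σp σm τp τm : C(Δ 2, S2)) (ρp ρm : C(Δ 3, S2)) (r : C(S2, S2)),
      IsPair σp σm ∧ IsPair τp τm ∧ ρp.comp (face 0) = ρm.comp (face 0) ∧
      ρp.comp (face 1) = σp ∧ ρp.comp (face 2) = τp ∧ ρp.comp (face 3) = σp ∧
      ρm.comp (face 1) = σm ∧ ρm.comp (face 2) = τm ∧ ρm.comp (face 3) = σm ∧
      g.comp σp = r.comp τp ∧ g.comp σm = r.comp τm ∧ r.Homotopic (ContinuousMap.id S2) ∧
      (∀ t, 0 ≤ ch (σp t)) ∧ (∀ t, ch (σm t) ≤ 0) ∧
      (∀ t : Δ 1, ((σp (face 0 t) : S2) : E3) =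
        mk3 (Complex.exp (2 * Real.pi * Complex.I * ((t 1 : ℝ) : ℂ))) 0) := by
  refine ⟨c2 true 1, c2 false 1, c2 true 2, c2 false 2, c3 true, c3 false, rmap, pair 1, pair 2,
    ContinuousMap.ext fun t => pt_zero' (face_self 0 t), c3_1 _, c3_2 _, c3_3 _, c3_1 _, c3_2 _,
    c3_3 _, g_eq hg _, g_eq hg _, rmap_hom, fun t => ?_, fun t => ?_, fun t => ?_⟩
  · simp [c2, pt, sg]
  · simp [c2, pt, sg]
  · change (pt true (face 0 t 0) ((1 : ℕ) * face 0 t 2) : E3) = _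
    rw [face_self, show face 0 t 2 = t 1 from face_succ 0 t 1, pt_zero, Nat.cast_one, one_mul]

end Vale.Agent.P103
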