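import Vale.Agent.P103.Stmt

/-! The construction: bump functions, the map, abstract orbits. -/

open Real Complex ComplexConjugate

noncomputable section

namespace Vale.Agent.P103

abbrev E3 : Type := EuclideanSpace ℝ (Fin 3)

/-- horizontal (complex) coordinate -/
def cz (y : E3) : ℂ := ⟨y 0, y 1⟩
/-- height -/
def ch (y : E3) : ℝ := y 2
def mk3 (ζ : ℂ) (h : ℝ) : E3 := !₂[ζ.re, ζ.im, h]

@[simp] lemma cz_mk3 (ζ : ℂ) (h : ℝ) : cz (mk3 ζ h) = ζ := by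
  simp [cz, mk3]
@[simp] lemma ch_mk3 (ζ : ℂ) (h : ℝ) : ch (mk3 ζ h) = h := by
  simp [ch, mk3]
lemma mk3_cz_ch (y : E3) : mk3 (cz y) (ch y) = y := by
  ext i; fin_cases i <;> simp [cz, ch, mk3]
lemma ext3 {y y' : E3} (h1 : cz y = cz y') (h2 : ch y = ch y') : y = y' := by
  rw [← mk3_cz_ch y, ← mk3_cz_ch y', h1, h2]
lemma norm_sq_E3 (y : E3) : ‖y‖ ^ 2 = ‖cz y‖ ^ 2 + ch y ^ 2 := by
  rw [EuclideanSpace.real_norm_sq_eq, Complex.sq_norm, Complex.normSq_apply]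
  simp [cz, ch, Fin.sum_univ_three]; ring
@[simp] lemma cz_smul (r : ℝ) (y : E3) : cz (r • y) = (r : ℂ) * cz y := by
  apply Complex.ext <;> simp [cz]
@[simp] lemma ch_smul (r : ℝ) (y : E3) : ch (r • y) = r * ch y := by simp [ch]
@[simp] lemma cz_add (y y' : E3) : cz (y + y') = cz y + cz y' := by
  apply Complex.ext <;> simp [cz]
@[simp] lemma ch_add (y y' : E3) : ch (y + y') = ch y + ch y' := by simp [ch]
@[simp] lemma cz_sub (y y' : E3) : cz (y - y') = cz y - cz y' := by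
  apply Complex.ext <;> simp [cz]
@[simp] lemma ch_sub (y y' : E3) : ch (y - y') = ch y - ch y' := by simp [ch]
lemma mem_S2_iff (y : E3) : y ∈ Metric.sphere (0 : E3) 1 ↔ ‖cz y‖ ^ 2 + ch y ^ 2 = 1 := by
  rw [mem_sphere_zero_iff_norm, ← norm_sq_E3]
  constructor
  · intro h; rw [h]; norm_num
  · intro h; have := norm_nonneg y; nlinarith
lemma S2_eq (y : S2) : ‖cz y‖ ^ 2 + ch y ^ 2 = 1 := (mem_S2_iff y).1 y.2
lemma contDiff_cz {n : WithTop ℕ∞} : ContDiff ℝ n cz := by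
  have : cz = fun y : E3 => ((y 0 : ℝ) : ℂ) + ((y 1 : ℝ) : ℂ) * Complex.I := by
    funext y; apply Complex.ext <;> simp [cz]
  rw [this]
  have h0 : ContDiff ℝ n (fun y : E3 => y 0) := by fun_prop
  have h1 : ContDiff ℝ n (fun y : E3 => y 1) := by fun_prop
  exact (Complex.ofRealCLM.contDiff.comp h0).add
    ((Complex.ofRealCLM.contDiff.comp h1).mul contDiff_const)
lemma contDiff_ch {n : WithTop ℕ∞} : ContDiff ℝ n ch := by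
  unfold ch; fun_prop
lemma contDiff_mk3 {n : WithTop ℕ∞} : ContDiff ℝ n (fun p : ℂ × ℝ => mk3 p.1 p.2) := by
  rw [contDiff_euclidean]
  intro i
  fin_cases i
  · exact Complex.reCLM.contDiff.comp contDiff_fst
  · exact Complex.imCLM.contDiff.comp contDiff_fst
  · exact contDiff_snd
@[fun_prop] lemma continuous_cz : Continuous cz := (contDiff_cz (n := 0)).continuous
@[fun_prop] lemma continuous_ch : Continuous ch := (contDiff_ch (n := 0)).continuous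
@[fun_prop] lemma continuous_mk3 {X : Type*} [TopologicalSpace X] {a : X → ℂ} {b : X → ℝ}
    (ha : Continuous a) (hb : Continuous b) : Continuous fun x => mk3 (a x) (b x) :=
  (contDiff_mk3 (n := 0)).continuous.comp (ha.prodMk hb)

/-- north pole -/
def NP : S2 := ⟨mk3 0 1, by rw [mem_S2_iff]; simp⟩
/-- south pole -/
def SP : S2 := ⟨mk3 0 (-1), by rw [mem_S2_iff]; simp⟩

/-! ### The map `z ↦ z ^ 2 + κ` on the Riemann sphere -/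

def DD (y : E3) (κ : ℂ) : ℝ :=
  (1 - ch y) ^ 2 + 2 * (cz y ^ 2 * conj κ).re + (1 + ch y) ^ 2 * ‖κ‖ ^ 2

def Psi (y : E3) (κ : ℂ) : E3 :=
  ((1 + ch y) ^ 2 + DD y κ)⁻¹ •
    mk3 (2 * (cz y ^ 2 + (((1 + ch y) ^ 2 : ℝ) : ℂ) * κ)) ((1 + ch y) ^ 2 - DD y κ)

/-- stereographic coordinate (junk value `0` at the south pole) -/
def st (y : E3) : ℂ := cz y / ((1 + ch y : ℝ) : ℂ)

/-- the point of the upper hemisphere over `ζ` -/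
def up (ζ : ℂ) : E3 := mk3 ζ (√(1 - ‖ζ‖ ^ 2))

/-! ### Bumps on the circle `ℝ / 6ℤ` -/

def ang (θ : ℝ) : Circle := Circle.exp (π / 3 * θ)

def cb (c r₁ r₂ : ℝ) (w : ℂ) : ℝ :=
  Real.smoothTransition (((w * conj ((ang c : Circle) : ℂ)).re - Real.cos (π / 3 * r₂)) /
    (Real.cos (π / 3 * r₁) - Real.cos (π / 3 * r₂)))

def cj (j : Fin 2) : ℝ := 5 / 2 + (j : ℕ) / 2

def cA (w : ℂ) : ℝ := cb (9 / 2) (1 / 2) 1 w
def ck (w : ℂ) : ℝ := 1 - cb (1 / 2) (3 / 4) 1 w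
def ckp (w : ℂ) : ℝ := 1 - cb (1 / 2) (1 / 2) (3 / 4) w
def cchi (j : Fin 2) (w : ℂ) : ℝ := cb (cj j) (1 / 4) (1 / 3) w
def cchip (j : Fin 2) (w : ℂ) : ℝ := cb (cj j) (1 / 3) (1 / 2) w

def bA (θ : ℝ) : ℝ := cA (ang θ)
def bk (θ : ℝ) : ℝ := ck (ang θ)
def bkp (θ : ℝ) : ℝ := ckp (ang θ)
def bchi (j : Fin 2) (θ : ℝ) : ℝ := cchi j (ang θ)
def bchip (j : Fin 2) (θ : ℝ) : ℝ := cchip j (ang θ)

/-! ### Fibre functions -/

def b1 : ContDiffBump (0 : ℂ) := ⟨1 / 4, 1 / 2, by norm_num, by norm_num⟩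
def b2 : ContDiffBump (0 : ℂ) := ⟨1, 2, by norm_num, by norm_num⟩
def psi : ContDiffBump (1 : ℝ) := ⟨1 / 4, 1 / 2, by norm_num, by norm_num⟩
def bβ : ContDiffBump (0 : ℝ) := ⟨3 / 5, 15 / 17, by norm_num, by norm_num⟩
def bσ : ContDiffBump (1 : ℝ) := ⟨8 / 5, 32 / 17, by norm_num, by norm_num⟩

def WW (x : Fin 2 → ℂ) : ℝ := b1 (x 0) * b1 (x 1)

/-- the phase of `x` for `1/2 ≤ ‖x‖ ≤ 1`, zero for `‖x‖ ≤ 1/4` -/
def pp (x : ℂ) : ℂ := (((1 - b1 x) * b2 x / ‖x‖ : ℝ) : ℂ) * x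

def kt (n : ℕ) (q : ℝ × ℂ) : ℂ := (((1 / 4) ^ n * psi (2 ^ (n + 1) * q.1) : ℝ) : ℂ) * pp q.2 ^ 2 ^ n

def K1 (q : ℝ × ℂ) : ℂ := ∑' n, kt n q

def KK (s : Fin 2 → ℝ) (x : Fin 2 → ℂ) : ℂ := K1 (s 0, x 0) + K1 (s 1, x 1)

def sat (u : ℂ) : ℂ := (((√(1 + ‖u‖ ^ 2))⁻¹ : ℝ) : ℂ) * u

def aa : ℝ := 2 * 4 ^ 128
def BB : ℝ := 2 * 4 ^ 18

def βy (y : E3) : ℝ := bβ (ch y)
def wy (y : E3) : ℂ := ((bσ (ch y) : ℝ) : ℂ) * cz y ^ 2

/-! ### The ambient formulas -/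

abbrev AA : Type := ℂ × E3 × E3 × E3 × E3

def amb (p : MM) : AA := (p.1, p.2.1, p.2.2.1, p.2.2.2.1, p.2.2.2.2)

def xs (q : AA) : Fin 2 → ℂ := ![cz q.2.2.1, cz q.2.2.2.1]
def ss (q : AA) : Fin 2 → ℝ := ![(cz q.2.2.2.2).re, (cz q.2.2.2.2).im]
def vel (q : AA) : ℝ := 1 - cA q.1 * WW (xs q) * (1 - βy q.2.1)
def newz (q : AA) : E3 := Psi q.2.1 ((BB : ℂ) * KK (ss q) (xs q))
def nx (j : Fin 2) (q : AA) : ℂ :=
  sat (((aa * ck q.1 : ℝ) : ℂ) * xs q j + ((cchi j q.1 : ℝ) : ℂ) * wy q.2.1)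
def ns (j : Fin 2) (q : AA) : ℝ := ckp q.1 * ss q j / 2 + cchip j q.1 / 4
def nsc (q : AA) : ℂ := ⟨ns 0 q, ns 1 q⟩

/-- `F` is given by the ambient formulas -/
def IsTheMap (F : MM → MM) : Prop :=
  ∀ p : MM, (F p).1 = p.1 * ang (vel (amb p)) ∧ ((F p).2.1 : E3) = newz (amb p) ∧
    ((F p).2.2.1 : E3) = up (nx 0 (amb p)) ∧ ((F p).2.2.2.1 : E3) = up (nx 1 (amb p)) ∧
    ((F p).2.2.2.2 : E3) = up (nsc (amb p))

/-! ### Abstract orbits -/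

structure Orb where
  θ : ℕ → ℝ
  x : ℕ → Fin 2 → ℂ
  s : ℕ → Fin 2 → ℝ
  β : ℕ → ℝ
  w : ℕ → ℂ
  θ_succ : ∀ t, θ (t + 1) = θ t + (1 - bA (θ t) * WW (x t) * (1 - β t))
  x_succ : ∀ t j, x (t + 1) j =
    sat (((aa * bk (θ t) : ℝ) : ℂ) * x t j + ((bchi j (θ t) : ℝ) : ℂ) * w t)
  s_succ : ∀ t j, s (t + 1) j = bkp (θ t) * s t j / 2 + bchip j (θ t) / 4
  β_nonneg : ∀ t, 0 ≤ β t
  β_le : ∀ t, β t ≤ 1
  x_le : ∀ t j, ‖x t j‖ ≤ 1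
  s_le : ∀ t j, |s t j| ≤ 1

/-- the orbit avoids the south pole and `z` is its stereographic coordinate -/
structure Orb.Fz (O : Orb) (z : ℕ → ℂ) : Prop where
  z_succ : ∀ t, z (t + 1) = z t ^ 2 + (BB : ℂ) * KK (O.s t) (O.x t)
  β_one : ∀ t, 1 / 2 ≤ ‖z t‖ → ‖z t‖ ≤ 2 → O.β t = 1
  β_zero : ∀ t, ‖z t‖ ≤ 1 / 4 ∨ 4 ≤ ‖z t‖ → O.β t = 0
  w_eq : ∀ t, ∃ r : ℝ, 0 ≤ r ∧ (‖z t‖ ≤ 2 → 4 / 25 ≤ r) ∧ (4 ≤ ‖z t‖ → r = 0) ∧
    O.w t = (r : ℂ) * z t ^ 2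
  w_le : ∀ t, ‖O.w t‖ ≤ 1

/-- the orbit sits at the south pole -/
def Orb.Inf (O : Orb) : Prop := ∀ t, O.β t = 0 ∧ O.w t = 0

/-- few jumps: the hypothesis of the entropy lemma -/
def FewJumps {X : Type} [MetricSpace X] (f : X → X) : Prop :=
  ∀ ε : ℝ, 0 < ε → ∃ C : ℕ, ∀ (n : ℕ) (p : X), ∃ S : Finset ℕ, S.card ≤ C * (Nat.log 2 n + 1) ∧
    ∀ t t' : ℕ, t ≤ t' → t' < n → (∀ u ∈ S, u ≤ t ∨ t' < u) → dist (f^[t] p) (f^[t'] p) ≤ ε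

/-! ### Simplices -/

abbrev Δ (n : ℕ) : Type := stdSimplex ℝ (Fin (n + 1))

def face {n : ℕ} (i : Fin (n + 2)) : C(Δ n, Δ (n + 1)) :=
  ⟨stdSimplex.map i.succAbove, stdSimplex.continuous_map _⟩

/-- two cones over the same loop -/
def IsPair {X : Type} [TopologicalSpace X] (σp σm : C(Δ 2, X)) : Prop :=
  σp.comp (face 1) = σp.comp (face 2) ∧ σm.comp (face 1) = σm.comp (face 2) ∧
    σp.comp (face 0) = σm.comp (face 0)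

def IsCocycle {X : Type} [TopologicalSpace X] (c : C(Δ 2, X) → ℝ) : Prop :=
  ∀ ω : C(Δ 3, X), c (ω.comp (face 0)) - c (ω.comp (face 1)) + c (ω.comp (face 2)) -
    c (ω.comp (face 3)) = 0

end Vale.Agent.P103
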