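import Vale.Agent.P103.Defs

/-! Part Ent: few jumps imply zero entropy. -/

noncomputable section

namespace Vale.Agent.P103

open Filter Topology
open scoped ENNReal

namespace Ent

theorem few_sets {α : Type} [DecidableEq α] (U : Finset α) (J : ℕ) :
    ∃ W : Finset (Finset α), W.card ≤ (U.card + 1) ^ J ∧ ∀ A ⊆ U, A.card ≤ J → A ∈ W := by
  induction J with
  | zero => exact ⟨{∅}, by simp, fun A _ h => by simpa using h⟩
  | succ J ih =>
    obtain ⟨W, h1, h2⟩ := ih
    refine ⟨W ∪ (U ×ˢ W).image fun p => insert p.1 p.2, ?_, fun A hA hc => ?_⟩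
    · refine (Finset.card_union_le _ _).trans ?_
      have := Finset.card_image_le (s := U ×ˢ W) (f := fun p => insert p.1 p.2)
      rw [Finset.card_product] at this
      calc _ ≤ W.card + U.card * W.card := by omega
        _ = W.card * (U.card + 1) := by ring
        _ ≤ _ := by rw [pow_succ]; exact Nat.mul_le_mul_right _ h1
    · rcases A.eq_empty_or_nonempty with rfl | ⟨a, ha⟩
      · exact Finset.mem_union_left _ (h2 _ (Finset.empty_subset _) (by simp))
      · refine Finset.mem_union_right _ (Finset.mem_image.2 ⟨(a, A.erase a), ?_, ?_⟩)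
        · refine Finset.mem_product.2 ⟨hA ha, h2 _ ((Finset.erase_subset _ _).trans hA) ?_⟩
          rw [Finset.card_erase_of_mem ha]; omega
        · exact Finset.insert_erase ha

/-- the bound for the number of codes -/
def NB (C N n : ℕ) : ℕ := ((n + 1) * N + 1) ^ (C * (Nat.log 2 n + 1) + 1)

theorem span {X : Type} [MetricSpace X] [CompactSpace X] [Nonempty X] {f : X → X}
    (h : FewJumps f) {δ : ℝ} (hδ : 0 < δ) : ∃ C N : ℕ, ∀ n, ∃ T : Finset X, T.card ≤ NB C N n ∧
      ∀ p, ∃ q ∈ T, ∀ t < n, dist (f^[t] p) (f^[t] q) ≤ δ := by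
  classical
  obtain ⟨C, hC⟩ := h (δ / 4) (by positivity)
  obtain ⟨F, -, hF, hcov⟩ := finite_cover_balls_of_compact (isCompact_univ (X := X))
    (by positivity : 0 < δ / 4)
  have hl : ∀ x : X, ∃ y ∈ hF.toFinset, dist x y ≤ δ / 4 := by
    intro x
    obtain ⟨y, hy, hx⟩ := Set.mem_iUnion₂.1 (hcov (Set.mem_univ x))
    exact ⟨y, hF.mem_toFinset.2 hy, (Metric.mem_ball.1 hx).le⟩
  choose lab hlab hd using hl
  refine ⟨C, hF.toFinset.card, fun n => ?_⟩
  choose S hS hJ using hC n
  let D : X → Finset ℕ := fun p => insert 0 ((S p).filter (· < n))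
  let code : X → Finset (ℕ × X) := fun p => (D p).image fun u => (u, lab (f^[u] p))
  obtain ⟨W, hW, hW'⟩ := few_sets (Finset.range (n + 1) ×ˢ hF.toFinset) (C * (Nat.log 2 n + 1) + 1)
  rw [Finset.card_product, Finset.card_range] at hW
  refine ⟨W.image (Function.invFun code), Finset.card_image_le.trans hW, fun p => ?_⟩
  refine ⟨Function.invFun code (code p), Finset.mem_image_of_mem _ (hW' _ ?_ ?_), ?_⟩
  · intro x hx
    obtain ⟨u, hu, rfl⟩ := Finset.mem_image.1 hx
    refine Finset.mem_product.2 ⟨Finset.mem_range.2 ?_, hlab _⟩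
    rcases Finset.mem_insert.1 hu with rfl | hu
    · simp
    · exact Nat.lt_succ_of_lt (Finset.mem_filter.1 hu).2
  · refine Finset.card_image_le.trans ((Finset.card_insert_le _ _).trans ?_)
    exact Nat.succ_le_succ ((Finset.card_filter_le _ _).trans (hS p))
  · set q := Function.invFun code (code p)
    have e : code q = code p := Function.invFun_eq ⟨p, rfl⟩
    have key : ∀ {a b : X}, code a = code b → ∀ u ∈ D a,
        u ∈ D b ∧ lab (f^[u] b) = lab (f^[u] a) := by
      intro a b e u hu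
      have : (u, lab (f^[u] a)) ∈ code b := e ▸ Finset.mem_image_of_mem _ hu
      obtain ⟨v, hv, e'⟩ := Finset.mem_image.1 this
      obtain ⟨rfl, e2⟩ := Prod.mk.inj e'
      exact ⟨hv, e2⟩
    intro t ht
    set u := Nat.findGreatest (· ∈ D p) t
    have hu : u ∈ D p := Nat.findGreatest_spec (P := (· ∈ D p)) (Nat.zero_le t)
      (Finset.mem_insert_self _ _)
    have hut : u ≤ t := Nat.findGreatest_le t
    have near : ∀ a, (∀ v ∈ D a, v ∈ D p) → dist (f^[u] a) (f^[t] a) ≤ δ / 4 := by
      intro a ha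
      refine hJ a u t hut ht fun v hv => ?_
      rcases le_or_gt v t with h1 | h1
      · exact Or.inl (Nat.le_findGreatest h1 (ha v (Finset.mem_insert_of_mem
          (Finset.mem_filter.2 ⟨hv, h1.trans_lt ht⟩))))
      · exact Or.inr h1
    have a1 := near p fun _ hv => hv
    have a2 := near q fun v hv => (key e v hv).1
    have a3 := hd (f^[u] p)
    have a4 := hd (f^[u] q)
    rw [(key e.symm u hu).2] at a4
    have b1 := dist_triangle4 (f^[t] p) (f^[u] p) (f^[u] q) (f^[t] q)
    have b2 := dist_triangle_right (f^[u] p) (f^[u] q) (lab (f^[u] p))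
    rw [dist_comm] at a1
    linarith

theorem real_lim (C N : ℕ) : Tendsto (fun n : ℕ => Real.log (NB C N n) / n) atTop (𝓝 0) := by
  have h1 : Tendsto (fun n : ℕ => (2 * (3 * C + 1) : ℝ) * (Real.log n ^ 2 / (1 * n + 0))) atTop
      (𝓝 ((2 * (3 * C + 1) : ℝ) * 0)) :=
    ((Real.tendsto_pow_log_div_mul_add_atTop 1 0 2 one_ne_zero).comp
      tendsto_natCast_atTop_atTop).const_mul _
  rw [mul_zero] at h1
  refine squeeze_zero' (Eventually.of_forall fun n =>
    div_nonneg (Real.log_natCast_nonneg _) (Nat.cast_nonneg _)) ?_ h1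
  filter_upwards [eventually_ge_atTop (N + 3)] with n hn
  rw [one_mul, add_zero, ← mul_div_assoc]
  refine div_le_div_of_nonneg_right ?_ (Nat.cast_nonneg _)
  have hn0 : (0 : ℝ) < n := by exact_mod_cast (by omega : 0 < n)
  have l1 : 1 ≤ Real.log n := by
    rw [Real.le_log_iff_exp_le hn0]
    have : (3 : ℝ) ≤ n := by exact_mod_cast (by omega : 3 ≤ n)
    linarith [Real.exp_one_lt_d9]
  have l2 : (Nat.log 2 n : ℝ) ≤ 2 * Real.log n := by
    have h2 : ((2 : ℝ)) ^ Nat.log 2 n ≤ n := by
      exact_mod_cast Nat.pow_log_le_self 2 (by omega : n ≠ 0)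
    have h3 := Real.log_le_log (by positivity) h2
    rw [Real.log_pow] at h3
    nlinarith [Real.log_two_gt_d9, (Nat.cast_nonneg (Nat.log 2 n) : (0 : ℝ) ≤ _)]
  have l3 : Real.log (((n + 1) * N + 1 : ℕ) : ℝ) ≤ 2 * Real.log n := by
    have h2 : (n + 1) * N + 1 ≤ n ^ 2 := by nlinarith
    have h3 : (((n + 1) * N + 1 : ℕ) : ℝ) ≤ (n : ℝ) ^ 2 := by exact_mod_cast h2
    have h4 := Real.log_le_log (by positivity) h3
    rwa [Real.log_pow] at h4
  rw [NB, Nat.cast_pow, Real.log_pow]
  have l4 : ((C * (Nat.log 2 n + 1) + 1 : ℕ) : ℝ) ≤ (3 * C + 1) * Real.log n := by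
    push_cast
    nlinarith [(Nat.cast_nonneg C : (0 : ℝ) ≤ _)]
  calc _ ≤ (3 * C + 1) * Real.log n * (2 * Real.log n) :=
        mul_le_mul l4 l3 (Real.log_natCast_nonneg _) (by positivity)
    _ = _ := by ring

theorem lim {a : ℕ → ℝ≥0∞} {C N : ℕ} (h1 : ∀ n, 1 ≤ a n) (h2 : ∀ n, a n ≤ NB C N n) :
    limsup (fun n : ℕ => ENNReal.log (a n) / (n : EReal)) atTop = 0 := by
  refine Tendsto.limsup_eq ?_
  have h3 : Tendsto (fun n : ℕ => ((Real.log (NB C N n) / n : ℝ) : EReal)) atTop (𝓝 0) :=
    EReal.tendsto_coe.2 (real_lim C N)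
  refine tendsto_of_tendsto_of_tendsto_of_le_of_le tendsto_const_nhds h3 (fun n => ?_) fun n => ?_
  · exact EReal.div_nonneg (ENNReal.zero_le_log_iff.2 (h1 n)) (Nat.cast_nonneg' n)
  · have hp : 0 < NB C N n := by unfold NB; positivity
    have e : ENNReal.log (NB C N n : ℝ≥0∞) = (Real.log (NB C N n) : ℝ) := by
      rw [← ENNReal.ofReal_natCast, ENNReal.log_ofReal_of_pos (by exact_mod_cast hp)]
    change _ ≤ ((Real.log (NB C N n) / n : ℝ) : EReal)
    rw [EReal.coe_div, ← e]
    exact EReal.div_le_div_right_of_nonneg (Nat.cast_nonneg' n) (ENNReal.log_monotone (h2 n))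

end Ent

open Ent

theorem htop_eq_zero_of_fewJumps {X : Type} [MetricSpace X] [CompactSpace X] [Nonempty X]
    (f : X → X) (h : FewJumps f) : htop f = 0 ∧ Dynamics.coverEntropy f Set.univ = 0 := by
  constructor
  · refine Tendsto.limUnder_eq (tendsto_const_nhds.congr' ?_)
    filter_upwards [self_mem_nhdsWithin] with ε hε
    have hε : 0 < ε := hε
    obtain ⟨C, N, hT⟩ := span h (half_pos hε)
    refine (lim (C := C) (N := N) (fun n => ?_) fun n => ?_).symm
    · obtain ⟨x⟩ := ‹Nonempty X›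
      refine le_iSup₂_of_le {x} ?_ (by simp)
      rintro a rfl b rfl hab
      exact absurd rfl hab
    · obtain ⟨T, hc, hq⟩ := hT n
      choose q hq1 hq2 using hq
      refine iSup₂_le fun S hS => ?_
      have h1 : S.encard ≤ (T : Set X).encard := by
        refine Set.encard_le_encard_of_injOn (f := q) (fun x _ => hq1 x) fun x hx y hy e => ?_
        by_contra hne
        refine (hS x hx y hy hne).not_ge (Real.iSup_le (fun j => ?_) hε.le)
        have a1 := hq2 x j j.2
        have a2 := hq2 y j j.2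
        rw [← e] at a2
        linarith [dist_triangle_right (f^[j] x) (f^[j] y) (f^[j] (q x))]
      rw [Set.encard_coe_eq_coe_finsetCard] at h1
      exact (ENat.toENNReal_mono h1).trans (by simpa using hc)
  · refine le_antisymm ?_ (Dynamics.coverEntropy_nonneg f Set.univ_nonempty)
    rw [Dynamics.coverEntropy_eq_iSup_basis Metric.uniformity_basis_dist_le]
    refine iSup₂_le fun ε hε => le_of_eq ?_
    obtain ⟨C, N, hT⟩ := span h hε
    refine lim (C := C) (N := N) (fun n => ?_) fun n => ?_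
    · simpa using ENat.toENNReal_mono
        ((Dynamics.one_le_coverMincard_iff f Set.univ _ n).2 Set.univ_nonempty)
    · obtain ⟨T, hc, hq⟩ := hT n
      have h1 : Dynamics.IsDynCoverOf f Set.univ {p : X × X | dist p.1 p.2 ≤ ε} n T := by
        intro x _
        obtain ⟨q, hq1, hq2⟩ := hq x
        exact ⟨q, hq1, Dynamics.mem_dynEntourage.2 hq2⟩
      exact (ENat.toENNReal_mono h1.coverMincard_le_card).trans (by simpa using hc)

end Vale.Agent.P103
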