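import Vale.Agent.P103.Defs

/-! Part HomAlg: chain level algebra in Mathlib singular homology. -/

noncomputable section

namespace Vale.Agent.P103

open CategoryTheory Limits HomologicalComplex

namespace HomAlg

abbrev RR : ModuleCat.{0} ℝ := ModuleCat.of ℝ ℝ

abbrev SS (X : Type) [TopologicalSpace X] : SSet.{0} := TopCat.toSSet.obj (TopCat.of X)

abbrev CX (X : Type) [TopologicalSpace X] : ChainComplex (ModuleCat.{0} ℝ) ℕ :=
  (SS X).chainComplex RR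

abbrev KM {X Y : Type} [TopologicalSpace X] [TopologicalSpace Y] (f : C(X, Y)) : CX X ⟶ CX Y :=
  SSet.chainComplexMap (TopCat.toSSet.map (TopCat.ofHom f)) RR

variable {X Y : Type} [TopologicalSpace X] [TopologicalSpace Y]

def sx {n : ℕ} (σ : C(Δ n, X)) : (SS X).obj (Opposite.op (SimplexCategory.mk n)) :=
  (TopCat.toSSetObjEquiv (TopCat.of X) (Opposite.op (SimplexCategory.mk n))).symm σ

def io {n : ℕ} (σ : C(Δ n, X)) : RR ⟶ (CX X).X n := (SS X).ιChainComplex (sx σ)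

theorem io_d {n : ℕ} (σ : C(Δ (n + 1), X)) :
    io σ ≫ (CX X).d (n + 1) n = ∑ i : Fin (n + 2), (-1) ^ i.val • io (σ.comp (face i)) :=
  (SS X).ιChainComplex_d RR (sx σ)

theorem io_map {n : ℕ} (σ : C(Δ n, X)) (f : C(X, Y)) : io σ ≫ (KM f).f n = io (f.comp σ) :=
  SSet.ι_chainComplexMap_f _ _ _ RR (sx σ)

theorem io_d2 (σ : C(Δ 2, X)) : io σ ≫ (CX X).d 2 1 =
    io (σ.comp (face 0)) - io (σ.comp (face 1)) + io (σ.comp (face 2)) := by
  rw [io_d (n := 1), Fin.sum_univ_three]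
  simp [sub_eq_add_neg]

theorem io_d3 (σ : C(Δ 3, X)) : io σ ≫ (CX X).d 3 2 =
    io (σ.comp (face 0)) - io (σ.comp (face 1)) + io (σ.comp (face 2)) - io (σ.comp (face 3)) := by
  rw [io_d (n := 2), Fin.sum_univ_four]
  simp [sub_eq_add_neg, show ((3 : Fin 4) : ℕ) = 3 from rfl, pow_succ]

theorem pair_d {σp σm : C(Δ 2, X)} (h : IsPair σp σm) : (io σp - io σm) ≫ (CX X).d 2 1 = 0 := by
  rw [Preadditive.sub_comp, io_d2, io_d2, h.1, h.2.1, h.2.2]
  abel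

def cl (k : RR ⟶ (CX X).X 2) (hk : k ≫ (CX X).d 2 1 = 0) : RR ⟶ (CX X).homology 2 :=
  (CX X).liftCycles k 1 (by simp) hk ≫ (CX X).homologyπ 2

theorem cl_map (k : RR ⟶ (CX X).X 2) (hk : k ≫ (CX X).d 2 1 = 0) (f : C(X, Y))
    (k' : RR ⟶ (CX Y).X 2) (hk' : k' ≫ (CX Y).d 2 1 = 0) (h : k ≫ (KM f).f 2 = k') :
    cl k hk ≫ homologyMap (KM f) 2 = cl k' hk' := by
  subst h
  rw [cl, Category.assoc, homologyπ_naturality, liftCycles_comp_cyclesMap_assoc]
  rfl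

theorem cl_two (k k' : RR ⟶ (CX X).X 2) (hk : k ≫ (CX X).d 2 1 = 0) (hk' : k' ≫ (CX X).d 2 1 = 0)
    (x : RR ⟶ (CX X).X 3) (h : k' - (k + k) = x ≫ (CX X).d 3 2) : cl k' hk' = cl k hk + cl k hk := by
  have h0 := (CX X).liftCycles_homologyπ_eq_zero_of_boundary _ 1 (by simp) x h
  rw [← sub_eq_zero, ← h0, cl, cl, ← Preadditive.add_comp, ← Preadditive.sub_comp]
  congr 1
  rw [← cancel_mono ((CX X).iCycles 2)]
  simp

def fn (c : C(Δ 2, X) → ℝ) : (CX X).X 2 ⟶ RR :=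
  Sigma.desc fun x => c (TopCat.toSSetObjEquiv (TopCat.of X) _ x) • 𝟙 RR

theorem io_fn (c : C(Δ 2, X) → ℝ) (σ : C(Δ 2, X)) : io σ ≫ fn c = c σ • 𝟙 RR :=
  Sigma.ι_desc _ _

theorem d_fn {c : C(Δ 2, X) → ℝ} (hc : IsCocycle c) : (CX X).d 3 2 ≫ fn c = 0 := by
  refine SSet.chainComplex_hom_ext fun x => ?_
  obtain ⟨σ, rfl⟩ : ∃ σ : C(Δ 3, X), x = sx σ :=
    ⟨TopCat.toSSetObjEquiv (TopCat.of X) _ x, (Equiv.symm_apply_apply _ _).symm⟩
  change io σ ≫ _ = _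
  rw [← Category.assoc, io_d3, Preadditive.sub_comp, Preadditive.add_comp, Preadditive.sub_comp,
    io_fn, io_fn, io_fn, io_fn, ← sub_smul, ← add_smul, ← sub_smul, hc, zero_smul, comp_zero]

theorem cl_fn {c : C(Δ 2, X) → ℝ} (hc : IsCocycle c) (k : RR ⟶ (CX X).X 2)
    (hk : k ≫ (CX X).d 2 1 = 0) :
    cl k hk ≫ (CX X).homologyι 2 ≫ (CX X).descOpcycles (fn c) 3 (by simp) (d_fn hc) = k ≫ fn c := by
  simp [cl]

end HomAlg

open HomAlg

theorem homMap_homotopic {X Y : Type} [TopologicalSpace X] [TopologicalSpace Y]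
    (f g : C(X, Y)) (h : f.Homotopic g) (k : ℕ) : homMap f k = homMap g k := by
  obtain ⟨H⟩ := h
  exact congrArg ModuleCat.Hom.hom
    (TopCat.Homotopy.congr_homologyMap_singularChainComplexFunctor
      (f := TopCat.ofHom f) (g := TopCat.ofHom g) H (ModuleCat.of ℝ ℝ) k)

theorem homMap_comp {X Y Z : Type} [TopologicalSpace X] [TopologicalSpace Y] [TopologicalSpace Z]
    (f : C(X, Y)) (g : C(Y, Z)) (k : ℕ) (v : HH X k) :
    homMap (g.comp f) k v = homMap g k (homMap f k v) := by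
  unfold homMap
  rw [TopCat.ofHom_comp, Functor.map_comp]
  rfl

theorem homMap_id {X : Type} [TopologicalSpace X] (k : ℕ) (v : HH X k) :
    homMap (ContinuousMap.id X) k v = v := by
  unfold homMap
  rw [TopCat.ofHom_id, CategoryTheory.Functor.map_id]
  rfl

theorem homAlg {X : Type} [TopologicalSpace X] (σp σm τp τm : C(Δ 2, X))
    (hσ : IsPair σp σm) (hτ : IsPair τp τm) (ρp ρm : C(Δ 3, X))
    (h0 : ρp.comp (face 0) = ρm.comp (face 0))
    (hp1 : ρp.comp (face 1) = σp) (hp2 : ρp.comp (face 2) = τp) (hp3 : ρp.comp (face 3) = σp)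
    (hm1 : ρm.comp (face 1) = σm) (hm2 : ρm.comp (face 2) = τm) (hm3 : ρm.comp (face 3) = σm)
    (c : C(Δ 2, X) → ℝ) (hc : IsCocycle c) (hne : c σp ≠ c σm)
    (g r : C(X, X)) (hgp : g.comp σp = r.comp τp) (hgm : g.comp σm = r.comp τm)
    (hr : r.Homotopic (ContinuousMap.id X)) :
    ∃ v : HH X 2, v ≠ 0 ∧ homMap g 2 v = (2 : ℝ) • v := by
  have a1 := pair_d hσ
  have a2 := pair_d hτ
  have a3 : (io (r.comp τp) - io (r.comp τm)) ≫ (CX X).d 2 1 = 0 :=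
    pair_d ⟨congrArg r.comp hτ.1, congrArg r.comp hτ.2.1, congrArg r.comp hτ.2.2⟩
  have b1 := cl_map _ a1 g _ a3 (by rw [Preadditive.sub_comp, io_map, io_map, hgp, hgm])
  have b2 := cl_map _ a2 r _ a3 (by rw [Preadditive.sub_comp, io_map, io_map])
  have b3 := cl_two _ _ a1 a2 (io ρp - io ρm) (by
    rw [Preadditive.sub_comp, io_d3, io_d3, h0, hp1, hp2, hp3, hm1, hm2, hm3]; abel)
  refine ⟨(cl _ a1).hom 1, fun h => hne ?_, ?_⟩
  · have b4 := congrArg (fun φ => φ.hom (1 : ℝ)) (cl_fn hc _ a1)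
    rw [Preadditive.sub_comp, io_fn, io_fn, ← sub_smul] at b4
    have h' : (cl _ a1).hom 1 = 0 := h
    simp only [ModuleCat.hom_comp, LinearMap.comp_apply, h', map_zero] at b4
    simpa [sub_eq_zero] using b4.symm
  · have c1 : homMap g 2 ((cl _ a1).hom 1) = (cl _ a3).hom 1 := congrArg (fun φ => φ.hom (1 : ℝ)) b1
    have c2 : homMap r 2 ((cl _ a2).hom 1) = (cl _ a3).hom 1 := congrArg (fun φ => φ.hom (1 : ℝ)) b2
    rw [homMap_homotopic _ _ hr] at c2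
    have c3 : (cl _ a2).hom 1 = (cl _ a3).hom 1 := (homMap_id 2 _).symm.trans c2
    have c4 : (cl _ a2).hom 1 = (2 : ℝ) • (cl _ a1).hom 1 := by rw [b3, two_smul]; rfl
    exact c1.trans (c3.symm.trans c4)

end Vale.Agent.P103
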