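import Vale.Agent.P103.Defs

/-! Part Hopf: a real 2-cocycle on the sphere that detects the fundamental class. -/

open ComplexConjugate

noncomputable section

namespace Vale.Agent.P103

namespace Hopf

def IsL (y : S2) (v : ℂ × ℂ) : Prop :=
  v ≠ 0 ∧ (1 + (ch y : ℂ)) * v.1 = cz y * v.2 ∧ (1 - (ch y : ℂ)) * v.2 = conj (cz y) * v.1

def PP (y : S2) (v : ℂ × ℂ) : ℂ × ℂ :=
  ((1 - (ch y : ℂ)) * v.1 + cz y * v.2, conj (cz y) * v.1 + (1 + (ch y : ℂ)) * v.2)

theorem normC (y : E3) : cz y * conj (cz y) + (ch y : ℂ) ^ 2 = ((‖y‖ ^ 2 : ℝ) : ℂ) := by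
  rw [norm_sq_E3, Complex.mul_conj, Complex.normSq_eq_norm_sq]; push_cast; ring

theorem sph (y : S2) : cz y * conj (cz y) + (ch y : ℂ) ^ 2 = 1 := by
  rw [normC, mem_sphere_zero_iff_norm.1 y.2]; norm_num

theorem isL_PP {y y' : S2} {v : ℂ × ℂ} (h : IsL y v) (hd : dist y y' < 1) : IsL y' (PP y' v) := by
  have s := sph y'
  refine ⟨fun h0 => h.1 ?_, ?_, ?_⟩
  · have a1 : (1 - (ch y' : ℂ)) * v.1 + cz y' * v.2 = 0 := congrArg Prod.fst h0
    have a2 : conj (cz y') * v.1 + (1 + (ch y' : ℂ)) * v.2 = 0 := congrArg Prod.snd h0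
    have n := normC ((y : E3) - y')
    rw [cz_sub, ch_sub, map_sub, Complex.ofReal_sub] at n
    have hd' : ‖(y : E3) - y'‖ < 1 := by rwa [← dist_eq_norm]
    have n4 : (4 : ℂ) - ((‖(y : E3) - y'‖ ^ 2 : ℝ) : ℂ) ≠ 0 := by
      have : (4 : ℝ) - ‖(y : E3) - y'‖ ^ 2 ≠ 0 := by nlinarith [norm_nonneg ((y : E3) - y')]
      exact_mod_cast this
    obtain ⟨_, b1, b2⟩ := h
    refine Prod.ext (mul_left_cancel₀ n4 ?_) (mul_left_cancel₀ n4 ?_)
    · rw [← n, Prod.fst_zero]
      linear_combination (2 - (ch y - ch y' : ℂ)) * (a1 + b1) + (cz y - cz y') * (a2 + b2)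
    · rw [← n, Prod.snd_zero]
      linear_combination (conj (cz y) - conj (cz y')) * (a1 + b1) +
        (2 + (ch y - ch y' : ℂ)) * (a2 + b2)
  · simp only [PP]; linear_combination (-v.1) * s
  · simp only [PP]; linear_combination (-v.2) * s

theorem isL_up {y : S2} (h : 0 ≤ ch y) : IsL y (cz y, 1 + (ch y : ℂ)) := by
  refine ⟨fun h0 => ?_, by ring, by linear_combination -sph y⟩
  have a : (1 + (ch y : ℂ)) = 0 := congrArg Prod.snd h0
  have : 1 + ch y = 0 := by exact_mod_cast a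
  linarith

theorem isL_down {y : S2} (h : ch y ≤ 0) : IsL y (1 - (ch y : ℂ), conj (cz y)) := by
  refine ⟨fun h0 => ?_, by linear_combination -sph y, by ring⟩
  have a : (1 - (ch y : ℂ)) = 0 := congrArg Prod.fst h0
  have : 1 - ch y = 0 := by exact_mod_cast a
  linarith

theorem exists_isL (y : S2) : ∃ v, IsL y v :=
  (le_total 0 (ch y)).elim (fun h => ⟨_, isL_up h⟩) fun h => ⟨_, isL_down h⟩

theorem den_ne {v : ℂ × ℂ} (h : v ≠ 0) : conj v.1 * v.1 + conj v.2 * v.2 ≠ 0 := by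
  intro h0
  rw [Complex.conj_mul', Complex.conj_mul'] at h0
  have h1 : ‖v.1‖ ^ 2 + ‖v.2‖ ^ 2 = 0 := by exact_mod_cast h0
  refine h (Prod.ext (norm_eq_zero.1 ?_) (norm_eq_zero.1 ?_)) <;>
    nlinarith [norm_nonneg v.1, norm_nonneg v.2]

theorem ratio {y : S2} {v v' : ℂ × ℂ} (h : IsL y v) (h' : IsL y v') :
    v' = ((conj v.1 * v'.1 + conj v.2 * v'.2) / (conj v.1 * v.1 + conj v.2 * v.2)) • v := by
  have d : v.1 * v'.2 = v.2 * v'.1 := by
    linear_combination (v'.2 * h.2.1 - v.2 * h'.2.1 + v.1 * h'.2.2 - v'.1 * h.2.2) / 2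
  have n := den_ne h.1
  refine Prod.ext ?_ ?_
  · rw [Prod.smul_fst, smul_eq_mul, div_mul_eq_mul_div, eq_div_iff n]
    linear_combination (-conj v.2) * d
  · rw [Prod.smul_snd, smul_eq_mul, div_mul_eq_mul_div, eq_div_iff n]
    linear_combination (conj v.1) * d

instance (n : ℕ) : ContractibleSpace (Δ n) :=
  (convex_stdSimplex ℝ _).contractibleSpace ⟨_, single_mem_stdSimplex ℝ 0⟩

instance (n : ℕ) : LocallyPathConnectedSpace (Δ n) :=
  (convex_stdSimplex ℝ _).locallyPathConnectedSpace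

variable {n : ℕ}

def Lift (σ : C(Δ n, S2)) (v : C(Δ n, ℂ × ℂ)) : Prop := ∀ t, IsL (σ t) (v t)

theorem exists_lift (σ : C(Δ n, S2)) : ∃ v, Lift σ v := by
  obtain ⟨x0, ⟨H⟩⟩ := id_nullhomotopic (Δ n)
  have hF : Continuous fun p => σ (H.symm p) := by fun_prop
  obtain ⟨δ, δ0, hδ⟩ := Metric.uniformContinuous_iff.1
    (CompactSpace.uniformContinuous_of_continuous hF) 1 one_pos
  obtain ⟨N, hN⟩ := exists_nat_one_div_lt δ0
  have key : ∀ k : ℕ, ∃ v : C(Δ n, ℂ × ℂ), ∀ t,
      IsL (σ (H.symm (Set.projIcc (0 : ℝ) 1 zero_le_one (k / (N + 1)), t))) (v t) := by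
    intro k
    induction k with
    | zero =>
      obtain ⟨v, hv⟩ := exists_isL (σ x0)
      exact ⟨ContinuousMap.const _ v, fun t => by simpa using hv⟩
    | succ k ih =>
      obtain ⟨v, hv⟩ := ih
      refine ⟨⟨fun t => PP (σ (H.symm (Set.projIcc (0 : ℝ) 1 zero_le_one
        ((k + 1 : ℕ) / (N + 1)), t))) (v t), by unfold PP; fun_prop⟩, fun t => isL_PP (hv t) (hδ ?_)⟩
      rw [Prod.dist_eq, dist_self, max_lt_iff]
      refine ⟨lt_of_le_of_lt (Set.abs_projIcc_sub_projIcc zero_le_one) ?_, δ0⟩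
      rw [← sub_div, abs_div, abs_of_pos (by positivity : (0 : ℝ) < N + 1)]
      simpa using hN
  obtain ⟨v, hv⟩ := key (N + 1)
  refine ⟨v, fun t => ?_⟩
  have := hv t
  rw [Nat.cast_add_one, div_self (by positivity)] at this
  simpa using this

theorem exists_log {σ : C(Δ n, S2)} {v v' : C(Δ n, ℂ × ℂ)} (h : Lift σ v) (h' : Lift σ v') :
    ∃ L : C(Δ n, ℂ), ∀ t, v' t = Complex.exp (L t) • v t := by
  let g : C(Δ n, ℂ) := ⟨fun t => (conj (v t).1 * (v' t).1 + conj (v t).2 * (v' t).2) /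
    (conj (v t).1 * (v t).1 + conj (v t).2 * (v t).2),
    Continuous.div (by fun_prop) (by fun_prop) fun t => den_ne (h t).1⟩
  have hg : ∀ t, v' t = g t • v t := fun t => ratio (h t) (h' t)
  have g0 : ∀ t, g t ≠ 0 := fun t h0 => (h' t).1 (by rw [hg, h0, zero_smul])
  obtain ⟨L, ⟨-, hL⟩, -⟩ := Complex.isCoveringMapOn_exp.existsUnique_continuousMap_lifts g
    (Complex.exp_log (g0 (stdSimplex.vertex 0))) g0
  exact ⟨L, fun t => by rw [hg, ← hL]; rfl⟩

open Classical in
def aa (γ : C(Δ 1, S2)) (v : C(Δ 1, ℂ × ℂ)) : ℝ :=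
  if h : Lift γ v then ((exists_log (exists_lift γ).choose_spec h).choose (stdSimplex.vertex 1) -
    (exists_log (exists_lift γ).choose_spec h).choose (stdSimplex.vertex 0)).im else 0

theorem aa_eq {γ : C(Δ 1, S2)} {v v' : C(Δ 1, ℂ × ℂ)} (h : Lift γ v) (h' : Lift γ v')
    {M : Δ 1 → ℂ} (hM : Continuous M) (e : ∀ t, v' t = Complex.exp (M t) • v t) :
    aa γ v' = aa γ v + (M (stdSimplex.vertex 1) - M (stdSimplex.vertex 0)).im := by
  rw [aa, aa, dif_pos h, dif_pos h']
  have h0 := (exists_lift γ).choose_spec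
  have h1 := (exists_log h0 h).choose_spec
  have h2 := (exists_log h0 h').choose_spec
  generalize (exists_log h0 h).choose = L at h1 ⊢
  generalize (exists_log h0 h').choose = L' at h2 ⊢
  have h3 : ∀ t, Complex.exp (L' t - L t - M t) = 1 := fun t => by
    have := e t
    rw [h1, h2, smul_smul, ← Complex.exp_add] at this
    rw [Complex.exp_sub, Complex.exp_sub, smul_left_injective ℂ (h0 t).1 this, Complex.exp_add]
    field_simp
  have h4 := Complex.isCoveringMap_exp.const_of_comp (g := fun t => L' t - L t - M t)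
    (by fun_prop) (fun a a' => Subtype.ext ((h3 a).trans (h3 a').symm))
    (stdSimplex.vertex 1) (stdSimplex.vertex 0)
  rw [← Complex.add_im]
  congr 1
  linear_combination h4

def cc (σ : C(Δ 2, S2)) (v : C(Δ 2, ℂ × ℂ)) : ℝ :=
  aa (σ.comp (face 0)) (v.comp (face 0)) - aa (σ.comp (face 1)) (v.comp (face 1)) +
    aa (σ.comp (face 2)) (v.comp (face 2))

theorem face_vertex (i : Fin (n + 2)) (j : Fin (n + 1)) :
    face i (stdSimplex.vertex j) = stdSimplex.vertex (i.succAbove j) :=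
  stdSimplex.map_vertex _ _

theorem cc_eq {σ : C(Δ 2, S2)} {v v' : C(Δ 2, ℂ × ℂ)} (h : Lift σ v) (h' : Lift σ v') :
    cc σ v' = cc σ v := by
  obtain ⟨M, hM⟩ := exists_log h h'
  have e : ∀ i : Fin 3, aa (σ.comp (face i)) (v'.comp (face i)) =
      aa (σ.comp (face i)) (v.comp (face i)) + (M (stdSimplex.vertex (i.succAbove 1)) -
        M (stdSimplex.vertex (i.succAbove 0))).im := fun i => by
    rw [← face_vertex, ← face_vertex]
    exact aa_eq (fun t => h _) (fun t => h' _) (M.comp (face i)).continuous fun t => hM _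
  rw [cc, cc, e, e, e, show (0 : Fin 3).succAbove 1 = 2 from rfl,
    show (0 : Fin 3).succAbove 0 = 1 from rfl, show (1 : Fin 3).succAbove 1 = 2 from rfl,
    show (1 : Fin 3).succAbove 0 = 0 from rfl, show (2 : Fin 3).succAbove 1 = 1 from rfl,
    show (2 : Fin 3).succAbove 0 = 0 from rfl]
  simp only [Complex.sub_im]
  ring

theorem face_face {i i' : Fin 4} {j j' : Fin 3}
    (h : i.succAbove ∘ j.succAbove = i'.succAbove ∘ j'.succAbove) :
    (face i).comp (face j) = (face i').comp (face j') := by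
  refine ContinuousMap.ext fun t => ?_
  change stdSimplex.map _ (stdSimplex.map _ t) = stdSimplex.map _ (stdSimplex.map _ t)
  rw [stdSimplex.map_comp_apply, stdSimplex.map_comp_apply, h]

end Hopf

open Hopf

theorem hopf_cocycle : ∃ c : C(Δ 2, S2) → ℝ, IsCocycle c ∧
    ∀ σp σm : C(Δ 2, S2), IsPair σp σm → (∀ t, 0 ≤ ch (σp t)) → (∀ t, ch (σm t) ≤ 0) →
      (∀ t : Δ 1, ((σp (face 0 t) : S2) : E3) =
        mk3 (Complex.exp (2 * Real.pi * Complex.I * ((t 1 : ℝ) : ℂ))) 0) → c σp ≠ c σm := by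
  have hc : ∀ {σ v}, Lift σ v → cc σ (exists_lift σ).choose = cc σ v := fun h =>
    cc_eq h (exists_lift _).choose_spec
  refine ⟨fun σ => cc σ (exists_lift σ).choose, fun ω => ?_, fun σp σm hp h1 h2 h3 => ?_⟩
  · obtain ⟨V, hV⟩ := exists_lift ω
    have e : ∀ i : Fin 4, cc (ω.comp (face i)) (exists_lift (ω.comp (face i))).choose =
        cc (ω.comp (face i)) (V.comp (face i)) := fun i => hc fun t => hV _
    simp only [e]
    simp only [cc, ContinuousMap.comp_assoc]
    rw [face_face (i := 1) (j := 0) (i' := 0) (j' := 0) (by decide),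
      face_face (i := 2) (j := 0) (i' := 0) (j' := 1) (by decide),
      face_face (i := 3) (j := 0) (i' := 0) (j' := 2) (by decide),
      face_face (i := 2) (j := 1) (i' := 1) (j' := 1) (by decide),
      face_face (i := 3) (j := 1) (i' := 1) (j' := 2) (by decide),
      face_face (i := 3) (j := 2) (i' := 2) (j' := 2) (by decide)]
    ring
  · let U : C(S2, ℂ × ℂ) := ⟨fun y => (cz y, 1 + (ch y : ℂ)), by fun_prop⟩
    let D : C(S2, ℂ × ℂ) := ⟨fun y => (1 - (ch y : ℂ), conj (cz y)), by fun_prop⟩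
    have hU : Lift σp (U.comp σp) := fun t => isL_up (h1 t)
    have hD : Lift σm (D.comp σm) := fun t => isL_down (h2 t)
    simp only [hc hU, hc hD]
    simp only [cc, ContinuousMap.comp_assoc, hp.1, hp.2.1, ← hp.2.2, sub_add_cancel]
    have hD' : Lift (σp.comp (face 0)) (D.comp (σp.comp (face 0))) := by
      rw [hp.2.2]; exact fun t => hD _
    rw [aa_eq hD' (fun t => hU _) (M := fun t => 2 * Real.pi * Complex.I * ((t 1 : ℝ) : ℂ))
      (continuous_const.mul (Complex.continuous_ofReal.comp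
        ((continuous_apply 1).comp continuous_subtype_val))) (fun t => ?_)]
    · simp [Real.pi_ne_zero]
    · simp only [U, D, ContinuousMap.comp_apply, ContinuousMap.coe_mk, h3, cz_mk3, ch_mk3,
        Prod.smul_mk, smul_eq_mul, ← Complex.exp_conj, ← Complex.exp_add]
      simp [map_ofNat]

end Vale.Agent.P103
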