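import Vale.Agent.P103.Defs

/-! Part KSmooth: the series K1 is C^1 on R x C. -/

noncomputable section

namespace Vale.Agent.P103

open Filter Topology

namespace KSmooth

theorem pp_smooth : ContDiff ℝ 1 pp := by
  rw [contDiff_iff_contDiffAt]
  intro x
  by_cases hx : x = 0
  · subst hx
    have : pp =ᶠ[𝓝 0] fun _ => 0 := by
      filter_upwards [b1.eventuallyEq_one] with y hy
      simp [pp, hy]
    exact contDiffAt_const.congr_of_eventuallyEq this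
  · have h1 : ContDiffAt ℝ 1 (fun y : ℂ => (1 - b1 y) * b2 y / ‖y‖) x :=
      ((contDiffAt_const.sub b1.contDiffAt).mul b2.contDiffAt).div (contDiffAt_norm ℝ hx)
        (norm_ne_zero_iff.2 hx)
    exact (Complex.ofRealCLM.contDiff.contDiffAt.comp x h1).mul contDiffAt_id

theorem pp_supp : HasCompactSupport pp := by
  refine HasCompactSupport.intro (isCompact_closedBall (0 : ℂ) 2) fun x hx => ?_
  have : b2 x = 0 := b2.zero_of_le_dist (not_le.1 hx).le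
  simp [pp, this]

theorem pp_norm (x : ℂ) : ‖pp x‖ ≤ 1 := by
  have h0 : 0 ≤ 1 - b1 x := sub_nonneg.2 b1.le_one
  have h1 : (1 - b1 x) * b2 x ≤ 1 :=
    mul_le_one₀ (sub_le_self _ b1.nonneg) b2.nonneg b2.le_one
  have h2 : 0 ≤ (1 - b1 x) * b2 x := mul_nonneg h0 b2.nonneg
  rw [pp, norm_mul, Complex.norm_real, Real.norm_eq_abs, abs_of_nonneg (by positivity)]
  by_cases hx : ‖x‖ = 0
  · simp [hx]
  · rwa [div_mul_cancel₀ _ hx]

theorem bound {E F : Type} [NormedAddCommGroup E] [NormedSpace ℝ E] [NormedAddCommGroup F]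
    [NormedSpace ℝ F] {f : E → F} (h : ContDiff ℝ 1 f) (hs : HasCompactSupport f) :
    ∃ L : ℝ, 0 ≤ L ∧ ∀ x, ‖fderiv ℝ f x‖ ≤ L := by
  obtain ⟨L, hL⟩ := (hs.fderiv ℝ).exists_bound_of_continuous (h.continuous_fderiv one_ne_zero)
  exact ⟨L, (norm_nonneg _).trans (hL 0), hL⟩

def ca (n : ℕ) (q : ℝ × ℂ) : ℝ := (1 / 4) ^ n * psi (2 ^ (n + 1) * q.1)

theorem kt_eq (n : ℕ) : kt n = fun q => ca n q • pp q.2 ^ 2 ^ n := by
  funext q; simp only [kt, ca, Complex.real_smul]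

theorem aa_smooth (n : ℕ) : ContDiff ℝ 1 (ca n) :=
  contDiff_const.mul (psi.contDiff.comp (contDiff_const.mul contDiff_fst))

theorem kt_smooth (n : ℕ) : ContDiff ℝ 1 (kt n) := by
  rw [kt_eq]
  exact (aa_smooth n).smul ((pp_smooth.comp contDiff_snd).pow _)

theorem aa_norm (n : ℕ) (q : ℝ × ℂ) : ‖ca n q‖ ≤ (1 / 4) ^ n := by
  rw [ca, Real.norm_eq_abs, abs_of_nonneg (mul_nonneg (by positivity) psi.nonneg)]
  exact mul_le_of_le_one_right (by positivity) psi.le_one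

theorem pow_norm (x : ℂ) (k : ℕ) : ‖pp x ^ k‖ ≤ 1 := by
  rw [norm_pow]; exact pow_le_one₀ (norm_nonneg _) (pp_norm x)

theorem kt_fderiv {L L' : ℝ} (hL0 : 0 ≤ L) (hL0' : 0 ≤ L') (hL : ∀ x, ‖fderiv ℝ pp x‖ ≤ L)
    (hL' : ∀ x, ‖fderiv ℝ psi x‖ ≤ L') (n : ℕ) (q : ℝ × ℂ) :
    ‖fderiv ℝ (kt n) q‖ ≤ (L + 2 * L') * (1 / 2) ^ n := by
  have d1 : HasFDerivAt (fun q : ℝ × ℂ => (2 : ℝ) ^ (n + 1) * q.1)
      (((2 : ℝ) ^ (n + 1)) • ContinuousLinearMap.fst ℝ ℝ ℂ) q := hasFDerivAt_fst.const_mul _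
  have d2 : HasFDerivAt psi (fderiv ℝ psi (2 ^ (n + 1) * q.1)) (2 ^ (n + 1) * q.1) :=
    ((psi.contDiff (n := 1)).differentiable one_ne_zero _).hasFDerivAt
  have d3 : HasFDerivAt (ca n) _ q := (d2.comp q d1).const_mul ((1 / 4 : ℝ) ^ n)
  have d4 : HasFDerivAt pp (fderiv ℝ pp q.2) q.2 :=
    (pp_smooth.differentiable one_ne_zero _).hasFDerivAt
  have d5 := (d4.comp q hasFDerivAt_snd).pow (2 ^ n)
  have d6 := d3.smul d5
  rw [kt_eq]
  refine (congrArg norm d6.fderiv).trans_le ((norm_add_le _ _).trans ?_)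
  have e1 : ‖(fderiv ℝ pp q.2).comp (ContinuousLinearMap.snd ℝ ℝ ℂ)‖ ≤ L :=
    (ContinuousLinearMap.opNorm_comp_le _ _).trans
      ((mul_le_of_le_one_right (norm_nonneg _) (ContinuousLinearMap.norm_snd_le ..)).trans (hL _))
  have e2 : ‖(fderiv ℝ psi (2 ^ (n + 1) * q.1)).comp
      (((2 : ℝ) ^ (n + 1)) • ContinuousLinearMap.fst ℝ ℝ ℂ)‖ ≤ L' * 2 ^ (n + 1) := by
    refine (ContinuousLinearMap.opNorm_comp_le _ _).trans (mul_le_mul (hL' _) ?_ (norm_nonneg _) hL0')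
    rw [norm_smul, Real.norm_eq_abs, abs_of_nonneg (by positivity)]
    exact mul_le_of_le_one_right (by positivity) (ContinuousLinearMap.norm_fst_le ..)
  have e3 : ‖(2 ^ n : ℕ) • (pp ∘ Prod.snd) q ^ (2 ^ n - 1)‖ ≤ 2 ^ n := by
    rw [nsmul_eq_mul, norm_mul]
    simpa using mul_le_of_le_one_right (by positivity : (0 : ℝ) ≤ 2 ^ n) (pow_norm q.2 (2 ^ n - 1))
  have p1 : ((1 / 4 : ℝ)) ^ n * 2 ^ n = (1 / 2) ^ n := by rw [← mul_pow]; norm_num
  rw [add_mul]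
  refine add_le_add ?_ ?_
  · rw [norm_smul, norm_smul]
    calc _ ≤ (1 / 4 : ℝ) ^ n * (2 ^ n * L) :=
          mul_le_mul (aa_norm n q) (mul_le_mul e3 e1 (norm_nonneg _) (by positivity))
            (by positivity) (by positivity)
      _ = _ := by rw [← mul_assoc, p1, mul_comm]
  · rw [ContinuousLinearMap.norm_smulRight_apply, norm_smul, Real.norm_eq_abs,
      abs_of_nonneg (by positivity)]
    calc _ ≤ (1 / 4 : ℝ) ^ n * (L' * 2 ^ (n + 1)) * 1 :=
          mul_le_mul (mul_le_mul_of_nonneg_left e2 (by positivity)) (pow_norm _ _) (norm_nonneg _)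
            (by positivity)
      _ = _ := by rw [← p1]; ring

end KSmooth

open KSmooth

theorem contDiff_K1 : ContDiff ℝ 1 K1 := by
  obtain ⟨L, hL0, hL⟩ := bound pp_smooth pp_supp
  obtain ⟨L', hL0', hL'⟩ := bound (psi.contDiff (n := 1)) psi.hasCompactSupport
  refine contDiff_tsum (N := 1) (v := fun _ n => (1 + L + 2 * L') * (1 / 2) ^ n) kt_smooth
    (fun _ _ => summable_geometric_two.mul_left _) fun k n q hk => ?_
  have hk' : k ≤ 1 := by exact_mod_cast hk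
  have p0 : (0 : ℝ) ≤ (1 / 2) ^ n := by positivity
  interval_cases k
  · rw [norm_iteratedFDeriv_zero, kt_eq, norm_smul]
    have h1 : ((1 / 4 : ℝ)) ^ n ≤ (1 / 2) ^ n := pow_le_pow_left₀ (by norm_num) (by norm_num) n
    have h2 := mul_le_mul (aa_norm n q) (pow_norm q.2 (2 ^ n)) (norm_nonneg _) (by positivity)
    nlinarith
  · rw [norm_iteratedFDeriv_one]
    have := kt_fderiv hL0 hL0' hL hL' n q
    nlinarith

end Vale.Agent.P103
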