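import Vale.Agent.P103.Progress

/-! Outside a logarithmic number of times the orbit is almost stationary. -/

noncomputable section

namespace Vale.Agent.P103

lemma count_le (g : ℕ → ℝ) (hg : ∀ w, g w ≤ g (w + 1)) (P : ℕ → Prop) [DecidablePred P]
    (hP : ∀ w, P w → g w + 1 ≤ g (w + 1)) (n : ℕ) :
    (((Finset.range n).filter P).card : ℝ) ≤ g n - g 0 := by
  induction n with
  | zero => simp
  | succ n ih =>
    rw [Finset.range_add_one, Finset.filter_insert]
    split_ifs with h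
    · rw [Finset.card_insert_of_notMem (by simp)]
      push_cast; linarith [hP n h]
    · linarith [hg n]

lemma log_add_le (n m : ℕ) : Nat.log 2 (n + m) ≤ Nat.log 2 n + m := by
  induction m with
  | zero => simp
  | succ m ih =>
    have : Nat.log 2 (n + m + 1) ≤ Nat.log 2 (n + m) + 1 := by
      rcases Nat.eq_zero_or_pos (n + m) with h | h
      · rw [h]; simp
      · rw [← Nat.log_mul_base (by norm_num) h.ne']
        exact Nat.log_mono_right (by omega)
    rw [← add_assoc]; omega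

namespace Orb

variable {O : Orb}

lemma of_nonunit {v : ℕ} (h : O.θ (v + 1) ≠ O.θ v + 1) :
    bA (O.θ v) ≠ 0 ∧ (∀ j, ‖O.x v j‖ < 1 / 2) ∧ O.β v ≠ 1 := by
  refine ⟨fun h1 => h (unit_of_A h1), fun j => ?_, fun h1 => h ?_⟩
  · by_contra hh; exact h (unit_of_W (WW_zero (not_lt.1 hh)))
  · rw [O.θ_succ, h1]; ring

lemma run_s {a c : ℕ} (h : ∀ v, a ≤ v → v ≤ c → O.θ (v + 1) ≠ O.θ v + 1) (j : Fin 2) :
    ∀ i, a + i ≤ c → |O.s (a + i) j| ≤ (1 / 2) ^ i := by
  intro i
  induction i with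
  | zero => intro _; simpa using O.s_le a j
  | succ i ih =>
    intro hi
    obtain ⟨-, h1, h2⟩ := of_bA_ne_zero (of_nonunit (h (a + i) (by omega) (by omega))).1
    rw [← add_assoc, O.s_succ, h1, (h2 j).2, pow_succ]
    have := ih (by omega)
    rw [show 1 * O.s (a + i) j / 2 + 0 / 4 = O.s (a + i) j * (1 / 2) by ring, abs_mul]
    norm_num at this ⊢
    linarith

lemma run_x {a c : ℕ} (h : ∀ v, a ≤ v → v ≤ c → O.θ (v + 1) ≠ O.θ v + 1) (j : Fin 2) {t : ℕ}
    (ht : a ≤ t) : ∀ i, t + i ≤ c → 2 ^ i * ‖O.x t j‖ ≤ ‖O.x (t + i) j‖ := by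
  intro i
  induction i with
  | zero => intro _; simp
  | succ i ih =>
    intro hi
    obtain ⟨h1, -, h2⟩ := of_bA_ne_zero (of_nonunit (h (t + i) (by omega) (by omega))).1
    have h3 := grow' h1 (h2 j).1
    have h4 := (of_nonunit (h (t + i + 1) (by omega) (by omega))).2.1 j
    have h5 := ih (by omega)
    have ha := aa_ge
    rw [← add_assoc, pow_succ]
    rcases min_le_iff.1 h3 with h6 | h6
    · nlinarith [norm_nonneg (O.x (t + i) j)]
    · linarith

lemma run_x_le {a c : ℕ} (h : ∀ v, a ≤ v → v ≤ c → O.θ (v + 1) ≠ O.θ v + 1) (j : Fin 2)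
    {t i : ℕ} (ht : a ≤ t) (hi : t + i ≤ c) : ‖O.x t j‖ ≤ (1 / 2) ^ (i + 1) := by
  have h1 := run_x h j ht i hi
  have h2 := (of_nonunit (h (t + i) (by omega) hi)).2.1 j
  have h3 : (0 : ℝ) < 2 ^ i := by positivity
  have e : (1 / 2 : ℝ) ^ (i + 1) * 2 ^ i = 1 / 2 := by
    rw [pow_succ, mul_right_comm, ← mul_pow]; norm_num
  have : ‖O.x t j‖ * 2 ^ i ≤ (1 / 2 : ℝ) ^ (i + 1) * 2 ^ i := by linarith
  exact le_of_mul_le_mul_right this h3

lemma run_z {a c : ℕ} (h : ∀ v, a ≤ v → v ≤ c → O.θ (v + 1) ≠ O.θ v + 1) (hac : a ≤ c)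
    {z : ℕ → ℂ} (hF : O.Fz z) :
    (∀ i, a + i ≤ c → ‖z (a + i)‖ ≤ (1 / 2) ^ (i + 1)) ∨
      (∀ i, a + i ≤ c → 2 ^ (i + 1) ≤ ‖z (a + i)‖) := by
  have hsq : ∀ i, a + (i + 1) ≤ c → ‖z (a + (i + 1))‖ = ‖z (a + i)‖ ^ 2 := fun i hi => by
    rw [← add_assoc, hF.z_succ, KK_zero, mul_zero, add_zero, norm_pow]
    intro j
    have := run_x_le h j (t := a + i) (i := 1) (by omega) (by omega)
    norm_num at this ⊢; exact this
  have hβ := (of_nonunit (h a le_rfl hac)).2.2
  by_cases h1 : ‖z a‖ < 1 / 2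
  · left
    intro i
    induction i with
    | zero => intro _; simpa using h1.le
    | succ i ih =>
      intro hi
      have h2 := ih (by omega)
      have h3 : (1 / 2 : ℝ) ^ (i + 1) ≤ 1 / 2 := by
        rw [pow_succ]
        have : (1 / 2 : ℝ) ^ i ≤ 1 := pow_le_one₀ (by norm_num) (by norm_num)
        linarith
      rw [hsq i hi, pow_succ (1 / 2 : ℝ) (i + 1)]
      nlinarith [norm_nonneg (z (a + i))]
  · right
    have h2 : 2 ≤ ‖z a‖ := by
      by_contra hh
      exact hβ (hF.β_one a (not_lt.1 h1) (not_le.1 hh).le)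
    intro i
    induction i with
    | zero => intro _; simpa using h2
    | succ i ih =>
      intro hi
      have h2 := ih (by omega)
      have h3 : (2 : ℝ) ≤ 2 ^ (i + 1) := by
        rw [pow_succ]
        have : (1 : ℝ) ≤ 2 ^ i := one_le_pow₀ (by norm_num)
        linarith
      rw [hsq i hi, pow_succ (2 : ℝ) (i + 1)]
      nlinarith

/-- the two times are both near the same fixed point -/
def Close (O : Orb) (ε : ℝ) (t t' : ℕ) : Prop :=
  |O.θ t - O.θ t'| ≤ ε ∧ 1 ≤ t ∧
    (∀ j, ‖O.x t j‖ ≤ ε ∧ ‖O.x t' j‖ ≤ ε ∧ |O.s t j| ≤ ε ∧ |O.s t' j| ≤ ε) ∧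
    ∀ z, O.Fz z → (‖z t‖ ≤ ε ∧ ‖z t'‖ ≤ ε) ∨ (1 / ε ≤ ‖z t‖ ∧ 1 / ε ≤ ‖z t'‖)

theorem few {ε : ℝ} (hε : 0 < ε) : ∃ C : ℕ, ∀ O : Orb, (O.Inf ∨ ∃ z, O.Fz z) → ∀ n : ℕ,
    ∃ S : Finset ℕ, S.card ≤ C * (Nat.log 2 n + 1) ∧
      ∀ t t', t < t' → t' < n → (∀ u ∈ S, u ≤ t ∨ t' < u) → O.Close ε t t' := by
  classical
  obtain ⟨m, hm1, hm⟩ : ∃ m : ℕ, 1 ≤ m ∧ (1 / 2 : ℝ) ^ m ≤ ε := by
    obtain ⟨k, hk⟩ := exists_pow_lt_of_lt_one hε (by norm_num : (1 / 2 : ℝ) < 1)
    refine ⟨k + 1, by omega, le_trans ?_ hk.le⟩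
    exact pow_le_pow_of_le_one (by norm_num) (by norm_num) (by omega)
  obtain ⟨K, hK⟩ := exists_nat_ge (1 / ε)
  refine ⟨(m + 1) + (2 * m + 2) * (31 + 6 * m) + 31 * K + 1, fun O hO n => ?_⟩
  set U := (Finset.range (n + m)).filter (fun v => O.θ (v + 1) = O.θ v + 1) with hU
  set V := (Finset.range n).filter (fun w => ⌊O.θ (w + 1) / ε⌋ ≠ ⌊O.θ w / ε⌋) with hV
  refine ⟨Finset.range (m + 1) ∪ U.biUnion (fun v => Finset.Icc (v - m) (v + m + 1)) ∪
    V.image (· + 1), ?_, ?_⟩
  · set L := Nat.log 2 n with hL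
    have hUc : U.card ≤ 25 + 6 * (L + m) := by
      have h1 := count_le O.θ O.le_step (fun v => O.θ (v + 1) = O.θ v + 1)
        (fun w hw => hw.ge) (n + m)
      have h2 := progress hO (n + m)
      have h3 : (Nat.log 2 (n + m) : ℝ) ≤ L + m := by exact_mod_cast log_add_le n m
      have : (U.card : ℝ) ≤ 25 + 6 * (L + m) := by linarith
      exact_mod_cast this
    have hVc : V.card ≤ (25 + 6 * L) * K + 1 := by
      have hmono : ∀ w, ⌊O.θ w / ε⌋ ≤ ⌊O.θ (w + 1) / ε⌋ := fun w =>
        Int.floor_mono (div_le_div_of_nonneg_right (O.le_step w) hε.le)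
      have h1 := count_le (fun w => (⌊O.θ w / ε⌋ : ℝ)) (fun w => by exact_mod_cast hmono w)
        (fun w => ⌊O.θ (w + 1) / ε⌋ ≠ ⌊O.θ w / ε⌋)
        (fun w hw => by
          have : ⌊O.θ w / ε⌋ + 1 ≤ ⌊O.θ (w + 1) / ε⌋ := by have := hmono w; omega
          exact_mod_cast this) n
      have h2 := progress hO n
      have h3 := Int.floor_le (O.θ n / ε)
      have h4 := Int.lt_floor_add_one (O.θ 0 / ε)
      have h5 : O.θ n / ε - O.θ 0 / ε ≤ (25 + 6 * L) * K := by
        rw [← sub_div, div_eq_mul_one_div]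
        exact mul_le_mul h2 hK (by positivity) (by positivity)
      have : (V.card : ℝ) ≤ (25 + 6 * L) * K + 1 := by linarith
      exact_mod_cast this
    have h1 : (U.biUnion (fun v => Finset.Icc (v - m) (v + m + 1))).card ≤
        U.card * (2 * m + 2) :=
      Finset.card_biUnion_le_card_mul _ _ _ (fun v _ => by rw [Nat.card_Icc]; omega)
    have h2 : (V.image (· + 1)).card ≤ V.card := Finset.card_image_le
    refine le_trans (Finset.card_union_le _ _) ?_
    refine le_trans (Nat.add_le_add_right (Finset.card_union_le _ _) _) ?_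
    rw [Finset.card_range]
    have h3 : U.card * (2 * m + 2) ≤ (25 + 6 * (L + m)) * (2 * m + 2) :=
      Nat.mul_le_mul_right _ hUc
    nlinarith [Nat.zero_le (m * L), Nat.zero_le (K * L), Nat.zero_le (m * m * L)]
  · intro t t' htt ht' hS
    have hnot : ∀ u, t < u → u ≤ t' → u ∉ Finset.range (m + 1) ∪
        U.biUnion (fun v => Finset.Icc (v - m) (v + m + 1)) ∪ V.image (· + 1) :=
      fun u a b hu => by rcases hS u hu with h | h <;> omega
    have htm : m ≤ t := by
      by_contra hh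
      exact hnot (t + 1) (by omega) (by omega) (by
        simp only [Finset.mem_union, Finset.mem_range]; left; left; omega)
    have hrun : ∀ v, t - m ≤ v → v ≤ t' + m → O.θ (v + 1) ≠ O.θ v + 1 := by
      intro v a b hv
      have hvU : v ∈ U := by rw [hU, Finset.mem_filter, Finset.mem_range]; exact ⟨by omega, hv⟩
      refine hnot (max (t + 1) (min v t')) (by omega) (by omega) ?_
      simp only [Finset.mem_union, Finset.mem_biUnion, Finset.mem_Icc]
      left; right
      exact ⟨v, hvU, by omega, by omega⟩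
    have hfl : ∀ i, t + i ≤ t' → ⌊O.θ (t + i) / ε⌋ = ⌊O.θ t / ε⌋ := by
      intro i
      induction i with
      | zero => intro _; rfl
      | succ i ih =>
        intro hi
        rw [← ih (by omega)]
        by_contra hh
        refine hnot (t + i + 1) (by omega) (by omega) ?_
        simp only [Finset.mem_union, Finset.mem_image]
        right
        refine ⟨t + i, ?_, rfl⟩
        rw [hV, Finset.mem_filter, Finset.mem_range]
        exact ⟨by omega, hh⟩
    have hpow : ∀ i, m ≤ i → (1 / 2 : ℝ) ^ i ≤ ε := fun i hi =>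
      le_trans (pow_le_pow_of_le_one (by norm_num) (by norm_num) hi) hm
    have hpow' : ∀ i, m ≤ i → 1 / ε ≤ (2 : ℝ) ^ i := fun i hi => by
      have := hpow i hi
      rw [one_div, inv_pow] at this
      rw [one_div]
      exact inv_le_of_inv_le₀ (by positivity) this
    have e1 : t - m + m = t := by omega
    have e2 : t - m + (t' - (t - m)) = t' := by omega
    refine ⟨?_, by omega, fun j => ⟨?_, ?_, ?_, ?_⟩, fun z hF => ?_⟩
    · have h1 := hfl (t' - t) (by omega)
      rw [show t + (t' - t) = t' by omega] at h1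
      have h2 := Int.abs_sub_lt_one_of_floor_eq_floor h1.symm
      rw [← sub_div, abs_div, abs_of_pos hε, div_lt_one hε] at h2
      exact h2.le
    · exact (run_x_le hrun j (t := t) (i := m) (by omega) (by omega)).trans (hpow _ (by omega))
    · exact (run_x_le hrun j (t := t') (i := m) (by omega) (by omega)).trans (hpow _ (by omega))
    · have := run_s hrun j m (by omega)
      rw [e1] at this; exact this.trans hm
    · have := run_s hrun j (t' - (t - m)) (by omega)
      rw [e2] at this; exact this.trans (hpow _ (by omega))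
    · rcases run_z hrun (by omega) hF with h | h
      · left
        have h1 := h m (by omega)
        have h2 := h (t' - (t - m)) (by omega)
        rw [e1] at h1; rw [e2] at h2
        exact ⟨h1.trans (hpow _ (by omega)), h2.trans (hpow _ (by omega))⟩
      · right
        have h1 := h m (by omega)
        have h2 := h (t' - (t - m)) (by omega)
        rw [e1] at h1; rw [e2] at h2
        exact ⟨(hpow' _ (by omega)).trans h1, (hpow' _ (by omega)).trans h2⟩

end Orb

end Vale.Agent.P103
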