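import Vale.Agent.P103.Sph
import Vale.Agent.P103.Quiet

/-! Orbits of the map are abstract orbits; the map has few jumps. -/

open Real

noncomputable section

namespace Vale.Agent.P103

lemma exists_ang (w : Circle) : ∃ θ, ang θ = w := by
  refine ⟨3 / π * Complex.arg w, ?_⟩
  unfold ang
  rw [show π / 3 * (3 / π * Complex.arg w) = Complex.arg w by field_simp, Circle.exp_arg]

lemma dist_ang (a b : ℝ) : dist (ang a) (ang b) ≤ 2 * |a - b| := by
  have h1 : dist (ang a) (ang b) = ‖((ang a : Circle) : ℂ) - ang b‖ := by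
    rw [← dist_eq_norm]; rfl
  have h2 : ((ang a : Circle) : ℂ) - ang b =
      ang b * (Complex.exp (Complex.I * ((π / 3 * (a - b) : ℝ) : ℂ)) - 1) := by
    simp only [ang, Circle.coe_exp]
    rw [mul_sub, ← Complex.exp_add, mul_one]
    congr 2; push_cast; ring
  rw [h1, h2, norm_mul, Circle.norm_coe, one_mul]
  refine (Real.norm_exp_I_mul_ofReal_sub_one_le).trans ?_
  rw [Real.norm_eq_abs, abs_mul, abs_of_pos (by positivity : 0 < π / 3)]
  have := Real.pi_le_four
  gcongr; linarith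

variable {F : MM → MM}

def liftθ (F : MM → MM) (p : MM) : ℕ → ℝ
  | 0 => (exists_ang p.1).choose
  | t + 1 => liftθ F p t + vel (amb (F^[t] p))

lemma ang_liftθ (hF : IsTheMap F) (p : MM) (t : ℕ) : ang (liftθ F p t) = (F^[t] p).1 := by
  induction t with
  | zero => exact (exists_ang p.1).choose_spec
  | succ t ih => rw [liftθ, ang_add, ih, Function.iterate_succ_apply', (hF _).1]

lemma xs_F (hF : IsTheMap F) (p : MM) (j : Fin 2) : xs (amb (F p)) j = nx j (amb p) := by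
  fin_cases j
  · change cz (F p).2.2.1 = _
    rw [(hF p).2.2.1, cz_up]; rfl
  · change cz (F p).2.2.2.1 = _
    rw [(hF p).2.2.2.1, cz_up]; rfl

lemma ss_F (hF : IsTheMap F) (p : MM) (j : Fin 2) : ss (amb (F p)) j = ns j (amb p) := by
  fin_cases j
  · change (cz (F p).2.2.2.2).re = _
    rw [(hF p).2.2.2.2, cz_up]; rfl
  · change (cz (F p).2.2.2.2).im = _
    rw [(hF p).2.2.2.2, cz_up]; rfl

def orb (hF : IsTheMap F) (p : MM) : Orb where
  θ := liftθ F p
  x t := xs (amb (F^[t] p))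
  s t := ss (amb (F^[t] p))
  β t := βy (F^[t] p).2.1
  w t := wy (F^[t] p).2.1
  θ_succ t := by rw [liftθ, bA, ang_liftθ hF]; rfl
  x_succ t j := by
    rw [Function.iterate_succ_apply', xs_F hF, bk, bchi, ang_liftθ hF]; rfl
  s_succ t j := by
    rw [Function.iterate_succ_apply', ss_F hF, bkp, bchip, ang_liftθ hF]; rfl
  β_nonneg t := bβ.nonneg
  β_le t := bβ.le_one
  x_le t j := by
    fin_cases j
    · exact norm_cz_le _
    · exact norm_cz_le _
  s_le t j := by
    fin_cases j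
    · exact (Complex.abs_re_le_norm _).trans (norm_cz_le _)
    · exact (Complex.abs_im_le_norm _).trans (norm_cz_le _)

lemma south_all (hF : IsTheMap F) {p : MM} (h : ch p.2.1 = -1) (t : ℕ) :
    ch (F^[t] p).2.1 = -1 := by
  induction t with
  | zero => exact h
  | succ t ih => rw [Function.iterate_succ_apply', (hF _).2.1]; exact Psi_inf ih _

lemma fin_all (hF : IsTheMap F) {p : MM} (h : ch p.2.1 ≠ -1) (t : ℕ) :
    ch (F^[t] p).2.1 ≠ -1 := by
  induction t with
  | zero => exact h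
  | succ t ih => rw [Function.iterate_succ_apply', (hF _).2.1]; exact (Psi_fin ih _).1

lemma orb_inf (hF : IsTheMap F) {p : MM} (h : ch p.2.1 = -1) : (orb hF p).Inf :=
  fun t => south_βw (south_all hF h t)

lemma orb_fz (hF : IsTheMap F) {p : MM} (h : ch p.2.1 ≠ -1) :
    (orb hF p).Fz (fun t => st (F^[t] p).2.1) where
  z_succ t := by
    rw [Function.iterate_succ_apply', (hF _).2.1]; exact (Psi_fin (fin_all hF h t) _).2
  β_one t := βy_one (fin_all hF h t)
  β_zero t := βy_zero (fin_all hF h t)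
  w_eq t := wy_eq (fin_all hF h t)
  w_le t := norm_wy_le _

lemma near_poles (hF : IsTheMap F) (p : MM) {t : ℕ} (ht : 1 ≤ t) {ε : ℝ}
    (hx : ∀ j, ‖(orb hF p).x t j‖ ≤ ε) (hs : ∀ j, |(orb hF p).s t j| ≤ ε) :
    dist (F^[t] p).2.2.1 NP ≤ 4 * ε ∧ dist (F^[t] p).2.2.2.1 NP ≤ 4 * ε ∧
      dist (F^[t] p).2.2.2.2 NP ≤ 4 * ε := by
  obtain ⟨u, rfl⟩ : ∃ u, t = u + 1 := ⟨t - 1, by omega⟩
  have hε : 0 ≤ ε := (norm_nonneg _).trans (hx 0)
  simp only [orb, Function.iterate_succ_apply', xs_F hF, ss_F hF] at hx hs ⊢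
  refine ⟨?_, ?_, ?_⟩
  · linarith [dist_up (hF (F^[u] p)).2.2.1 (hx 0)]
  · linarith [dist_up (hF (F^[u] p)).2.2.2.1 (hx 1)]
  · have : ‖nsc (amb (F^[u] p))‖ ≤ 2 * ε := by
      refine (Complex.norm_le_abs_re_add_abs_im _).trans ?_
      simp only [nsc]
      linarith [hs 0, hs 1]
    linarith [dist_up (hF (F^[u] p)).2.2.2.2 this]

theorem fewJumps (hF : IsTheMap F) : FewJumps F := by
  intro ε hε
  obtain ⟨C, hC⟩ := Orb.few (ε := ε / 8) (by positivity)
  refine ⟨C, fun n p => ?_⟩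
  have hO : (orb hF p).Inf ∨ ∃ z, (orb hF p).Fz z := by
    by_cases h : ch p.2.1 = -1
    · exact Or.inl (orb_inf hF h)
    · exact Or.inr ⟨_, orb_fz hF h⟩
  obtain ⟨S, hS, hcl⟩ := hC (orb hF p) hO n
  refine ⟨S, hS, fun t t' h1 h2 h3 => ?_⟩
  rcases h1.eq_or_lt with rfl | h1
  · simp [hε.le]
  obtain ⟨a, b, c, d⟩ := hcl t t' h1 h2 h3
  obtain ⟨p1, p2, p3⟩ := near_poles hF p b (fun j => (c j).1) (fun j => (c j).2.2.1)
  obtain ⟨q1, q2, q3⟩ := near_poles hF p (t := t') (by omega) (fun j => (c j).2.1)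
    (fun j => (c j).2.2.2)
  simp only [Prod.dist_eq, max_le_iff]
  refine ⟨?_, ?_, ?_, ?_, ?_⟩
  · rw [← ang_liftθ hF, ← ang_liftθ hF]
    refine (dist_ang _ _).trans ?_
    change |liftθ F p t - liftθ F p t'| ≤ ε / 8 at a
    linarith
  · by_cases h : ch p.2.1 = -1
    · rw [eq_SP (south_all hF h t), eq_SP (south_all hF h t')]; simp [hε.le]
    · rcases d _ (orb_fz hF h) with ⟨d1, d2⟩ | ⟨d1, d2⟩
      · linarith [dist_triangle_right (F^[t] p).2.1 (F^[t'] p).2.1 NP,
          dist_NP (fin_all hF h t) d1, dist_NP (fin_all hF h t') d2]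
      · linarith [dist_triangle_right (F^[t] p).2.1 (F^[t'] p).2.1 SP,
          dist_SP (fin_all hF h t) (by positivity) d1, dist_SP (fin_all hF h t') (by positivity) d2]
  · linarith [dist_triangle_right (F^[t] p).2.2.1 (F^[t'] p).2.2.1 NP]
  · linarith [dist_triangle_right (F^[t] p).2.2.2.1 (F^[t'] p).2.2.2.1 NP]
  · linarith [dist_triangle_right (F^[t] p).2.2.2.2 (F^[t'] p).2.2.2.2 NP]

end Vale.Agent.P103
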