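import Vale.Agent.P103.Val

/-! Analysis of one loop around the circle. -/

noncomputable section

namespace Vale.Agent.P103

namespace Orb

variable {O : Orb} {z : ℕ → ℂ}

lemma stuck (hR : O.Reset) {D : ℕ} (h : ∀ t, 1 ≤ t → t < D → O.w t = 0 ∧ O.β t = 0) :
    ∀ t ≤ D, O.θ t ≤ 5 ∧ ∀ j, O.x t j = 0 := by
  intro t
  induction t with
  | zero => intro _; exact ⟨by linarith [hR.2.1], fun j => (hR.2.2 j).1⟩
  | succ t ih =>
    intro ht
    obtain ⟨h5, hx⟩ := ih (by omega)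
    rcases Nat.eq_zero_or_pos t with rfl | h0
    · refine ⟨by linarith [O.step_le 0, hR.2.1], fun j => ?_⟩
      have hc := chi_zero_left (j := j) (θ := O.θ 0) (by linarith [hR.1])
        (by linarith [hR.2.1, cj_ge j])
      rw [O.x_succ, hx, hc.1]; simp
    · obtain ⟨hw, hβ⟩ := h t h0 (by omega)
      refine ⟨stay (fun j => by rw [hx]; norm_num) hβ h5, fun j => ?_⟩
      rw [O.x_succ, hx, hw]; simp

lemma pow_le (hF : O.Fz z) (hR : O.Reset) {D : ℕ} (hD : ∀ t < D, O.θ t ≤ 7) {t : ℕ} {m : ℝ}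
    (hm : 0 ≤ m) (h : m ≤ ‖z t‖) : ∀ i, t + i ≤ D → m ^ 2 ^ i ≤ ‖z (t + i)‖ := by
  intro i
  induction i with
  | zero => intro _; simpa using h
  | succ i ih =>
    intro hi
    obtain ⟨φ, hφ⟩ := val_all hF hR hD (t + i) (by omega)
    have h1 := (read_norm hF hφ).1
    have h2 := ih (by omega)
    rw [pow_succ, pow_mul]
    exact le_trans (pow_le_pow_left₀ (by positivity) h2 2) h1

lemma two_le (hF : O.Fz z) (hR : O.Reset) {D : ℕ} (hD : ∀ t < D, O.θ t ≤ 7) {t t' : ℕ}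
    (h : 2 ≤ ‖z t‖) (h1 : t ≤ t') (h2 : t' ≤ D) : 2 ≤ ‖z t'‖ := by
  obtain ⟨i, rfl⟩ := Nat.exists_eq_add_of_le h1
  refine le_trans ?_ (pow_le hF hR hD (by norm_num) h i h2)
  exact le_self_pow₀ (by norm_num) (by positivity)

lemma loop_lt_two (hF : O.Fz z) (hR : O.Reset) {D : ℕ} (hD : ∀ t < D, O.θ t ≤ 7)
    (hD' : 7 ≤ O.θ D) : ‖z 0‖ < 2 := by
  by_contra hh
  push Not at hh
  have h4 : ∀ t, 1 ≤ t → t < D → 4 ≤ ‖z t‖ := by
    intro t h1 h2
    obtain ⟨s, rfl⟩ : ∃ s, t = s + 1 := ⟨t - 1, by omega⟩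
    have h3 := two_le hF hR hD hh (Nat.zero_le s) (by omega)
    have := pow_le hF hR hD (by norm_num) h3 1 (by omega)
    norm_num at this ⊢; exact this
  have := (stuck hR (D := D) (fun t h1 h2 => ?_) D le_rfl).1
  · linarith
  · obtain ⟨r, -, -, hr, hw⟩ := hF.w_eq t
    rw [hw, hr (h4 t h1 h2)]
    exact ⟨by simp, hF.β_zero t (Or.inr (h4 t h1 h2))⟩

lemma exists_write (hR : O.Reset) :
    ∃ (tw : ℕ) (j : Fin 2), tw ≤ 2 ∧ |O.θ tw - cj j| ≤ 1 / 4 := by
  have h1 : O.θ 1 = O.θ 0 + 1 :=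
    unit_of_A (bA_zero_left (by linarith [hR.1]) (by linarith [hR.2.1]))
  have h2 : O.θ 2 = O.θ 1 + 1 :=
    unit_of_A (t := 1) (bA_zero_left (by linarith [hR.1]) (by linarith [hR.2.1]))
  have := hR.1
  have := hR.2.1
  rcases le_total (O.θ 1) (9 / 4) with h | h
  · exact ⟨2, 1, le_rfl, by rw [cj_one, abs_le]; constructor <;> linarith⟩
  · rcases le_total (O.θ 1) (11 / 4) with h' | h'
    · exact ⟨1, 0, by norm_num, by rw [cj_zero, abs_le]; constructor <;> linarith⟩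
    · exact ⟨1, 1, by norm_num, by rw [cj_one, abs_le]; constructor <;> linarith⟩

lemma write_ge (hF : O.Fz z) {t : ℕ} {j : Fin 2} (hx : O.x t j = 0)
    (hc : |O.θ t - cj j| ≤ 1 / 4) (hz : ‖z t‖ ≤ 2) : 2 / 25 * ‖z t‖ ^ 2 ≤ ‖O.x (t + 1) j‖ := by
  rw [O.x_succ, hx, bchi_one hc]
  refine le_trans ?_ (norm_sat_ge _)
  have h1 := hF.w_le t
  obtain ⟨r, hr, hr2, -, hw⟩ := hF.w_eq t
  have h2 : ‖O.w t‖ = r * ‖z t‖ ^ 2 := by
    rw [hw, norm_mul, norm_pow, Complex.norm_real, Real.norm_eq_abs, abs_of_nonneg hr]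
  simp only [mul_zero, Complex.ofReal_one, one_mul, zero_add]
  have h3 := hr2 hz
  have h4 : 4 / 25 * ‖z t‖ ^ 2 ≤ r * ‖z t‖ ^ 2 := by gcongr
  apply le_min <;> linarith

lemma calm (hF : O.Fz z) {tw : ℕ} (hz : ‖z tw‖ ≤ 1 / 4) (h5 : O.θ tw ≤ 5) :
    ∀ i, (∀ u, tw ≤ u → u < tw + i → ∀ j, ‖O.x u j‖ ≤ 1 / 4) →
      ‖z (tw + i)‖ ≤ 1 / 4 ∧ O.θ (tw + i) ≤ 5 := by
  intro i
  induction i with
  | zero => intro _; exact ⟨hz, h5⟩
  | succ i ih =>
    intro h
    obtain ⟨h1, h2⟩ := ih (fun u a b => h u a (by omega))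
    have hx := h (tw + i) (by omega) (by omega)
    refine ⟨?_, stay hx (hF.β_zero _ (Or.inl h1)) h2⟩
    rw [← add_assoc, hF.z_succ, KK_zero hx, mul_zero, add_zero, norm_pow]
    nlinarith [norm_nonneg (z (tw + i))]

lemma grow_iter {t : ℕ} {j : Fin 2} (h1 : cj j + 1 / 2 ≤ O.θ t) :
    ∀ i, O.θ (t + i) ≤ 11 / 2 → min ((aa / 2) ^ i * ‖O.x t j‖) (1 / 2) ≤ ‖O.x (t + i) j‖ := by
  intro i
  have ha := aa_ge
  induction i with
  | zero => intro _; simp
  | succ i ih =>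
    intro h
    have h2 : O.θ (t + i) ≤ 11 / 2 := (O.le_step _).trans h
    have h3 := ih h2
    refine le_trans ?_ (grow (t := t + i) (h1.trans (O.mono (Nat.le_add_right _ _))) h2)
    apply le_min _ (min_le_right _ _)
    rcases min_le_iff.1 h3 with h4 | h4
    · refine (min_le_left _ _).trans ?_
      rw [pow_succ', mul_assoc]; gcongr
    · refine (min_le_right _ _).trans ?_
      nlinarith

theorem loop_ineq (hF : O.Fz z) (hR : O.Reset) {D : ℕ} (hD : ∀ t < D, O.θ t < 7)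
    (hD' : 7 ≤ O.θ D) (hz : ‖z D‖ < 2) :
    18 < D ∧ (1 / 4 : ℝ) ^ (8 * D) ≤ ‖z D‖ ∧ (4 : ℝ) ^ (128 * (D - 9)) * (min 1 ‖z 0‖) ^ 8 ≤ 4 := by
  have hD7 : ∀ t < D, O.θ t ≤ 7 := fun t ht => (hD t ht).le
  have ha := aa_ge
  have hlt : ∀ t, O.θ t < 7 → t < D := fun t ht => by
    by_contra hh; have := O.mono (not_lt.1 hh); linarith
  have hall : ∀ t ≤ D, ‖z t‖ < 2 := fun t ht => by
    by_contra hh; have := two_le hF hR hD7 (not_lt.1 hh) ht le_rfl; linarith
  have hread : ∀ t < D, ∀ j, 1 / 2 ≤ ‖O.x t j‖ → BB * (1 / 4) ^ t ≤ ‖z (t + 1)‖ := fun t ht => by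
    obtain ⟨φ, hφ⟩ := val_all hF hR hD7 t ht.le
    exact (read_norm hF hφ).2
  have hzero : ∀ t ≤ D, ∀ j, O.θ t < cj j + 1 / 2 → O.x t j = 0 := fun t ht j h => by
    obtain ⟨φ, hφ⟩ := val_all hF hR hD7 t ht
    exact ((hφ.2.2 j).2 h).1
  have hBB : ∀ t : ℕ, BB * (1 / 4) ^ t < 2 → 18 < t := fun t ht => by
    by_contra hh
    have h1 : (1 / 4 : ℝ) ^ 18 ≤ (1 / 4) ^ t :=
      pow_le_pow_of_le_one (by norm_num) (by norm_num) (by omega)
    have h2 : BB * (1 / 4) ^ 18 = 2 := by unfold BB; norm_num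
    nlinarith [BB_pos]
  obtain ⟨tw, j, htw, hc⟩ := exists_write hR
  have hc' := abs_le.1 hc
  have hj1 := cj_ge j
  have hj2 := cj_le j
  have htwD : tw < D := hlt _ (by linarith)
  have hw1 : O.θ (tw + 1) = O.θ tw + 1 := unit_of_A (bA_zero_left (by linarith) (by linarith))
  have hxw := write_ge hF (hzero tw htwD.le j (by linarith)) hc (hall tw htwD.le).le
  have hzs : ‖z tw‖ ≤ 1 / 4 := by
    by_contra hh
    push Not at hh
    have h1 := grow (O := O) (t := tw + 1) (j := j) (by linarith) (by linarith)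
    have h2 : 1 / 2 ≤ ‖O.x (tw + 1 + 1) j‖ := by
      refine le_trans (le_min ?_ le_rfl) h1
      have : 1 / 200 ≤ ‖O.x (tw + 1) j‖ := by nlinarith
      nlinarith
    have h3 : tw + 1 + 1 < D := hlt _ (by linarith [O.step_le (tw + 1)])
    have h4 := hread _ h3 j h2
    have := hBB _ (h4.trans_lt (hall _ h3))
    omega
  have hex : ∃ i, ∃ j', 1 / 4 < ‖O.x (tw + i) j'‖ := by
    by_contra hh
    push Not at hh
    have := (calm hF hzs (by linarith) (D - tw) (fun u a b j' => by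
      obtain ⟨i, rfl⟩ := Nat.exists_eq_add_of_le a; exact hh i j')).2
    rw [show tw + (D - tw) = D by omega] at this
    linarith
  classical
  obtain ⟨j', hj'⟩ := Nat.find_spec hex
  set i₀ := Nat.find hex with hi₀
  have hmin : ∀ u, tw ≤ u → u < tw + i₀ → ∀ j, ‖O.x u j‖ ≤ 1 / 4 := fun u a b j'' => by
    obtain ⟨i, rfl⟩ := Nat.exists_eq_add_of_le a
    have := Nat.find_min hex (m := i) (by omega)
    push Not at this
    exact this j''
  set ts := tw + i₀ with hts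
  have hθs : O.θ ts ≤ 5 := (calm hF hzs (by linarith) i₀ hmin).2
  have htsD : ts < D := hlt _ (by linarith)
  have hθs' : cj j' + 1 / 2 ≤ O.θ ts := by
    by_contra hh
    rw [hzero ts htsD.le j' (not_le.1 hh)] at hj'
    norm_num at hj'
  have hbig1 : 1 / 2 ≤ ‖O.x (ts + 1) j'‖ := by
    refine le_trans (le_min ?_ le_rfl) (grow hθs' (by linarith))
    nlinarith
  have hts1 : ts + 1 < D := hlt _ (by linarith [O.step_le ts])
  have hr := hread _ hts1 j' hbig1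
  have h18 := hBB _ (hr.trans_lt (hall _ hts1))
  -- unit steps after `ts + 1`
  have hbig : ∀ i, O.θ (ts + 1 + i) ≤ 11 / 2 → 1 / 2 ≤ ‖O.x (ts + 1 + i) j'‖ := fun i hi => by
    refine le_trans (le_min ?_ le_rfl) (grow_iter (hθs'.trans (O.le_step _)) i hi)
    have : (1 : ℝ) ≤ (aa / 2) ^ i := one_le_pow₀ (by linarith)
    nlinarith
  have hunit : ∀ i, O.θ (ts + 1 + i) < 7 → O.θ (ts + 1 + i + 1) = O.θ (ts + 1 + i) + 1 :=
    fun i hi => by
      rcases le_total (O.θ (ts + 1 + i)) (11 / 2) with h | h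
      · exact unit_of_W (WW_zero (hbig i h))
      · exact unit_of_A (bA_zero_right h (by linarith))
  have hD5 : D ≤ ts + 5 := by
    by_contra hh
    have a0 := hunit 0 (hD _ (by omega))
    have a1 := hunit 1 (hD _ (by omega))
    have a2 := hunit 2 (hD _ (by omega))
    have a3 := hunit 3 (hD _ (by omega))
    have a4 := hD (ts + 5) (by omega)
    have a5 := O.le_step ts
    have a6 := cj_ge j'
    simp only [add_assoc, Nat.reduceAdd, add_zero] at a0 a1 a2 a3 a4 a5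
    linarith
  refine ⟨by omega, ?_, ?_⟩
  · have h1 : (1 / 4 : ℝ) ^ D ≤ ‖z (ts + 1 + 1)‖ := by
      refine le_trans ?_ hr
      have h2 : (1 / 4 : ℝ) ^ D ≤ (1 / 4) ^ (ts + 1) :=
        pow_le_pow_of_le_one (by norm_num) (by norm_num) (by omega)
      have h3 : (1 : ℝ) ≤ BB := by unfold BB; norm_num
      have : (0 : ℝ) ≤ (1 / 4) ^ (ts + 1) := by positivity
      nlinarith
    have h2 := pow_le hF hR hD7 (by positivity) h1 (D - (ts + 1 + 1)) (by omega)
    rw [show ts + 1 + 1 + (D - (ts + 1 + 1)) = D by omega] at h2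
    refine le_trans ?_ h2
    rw [← pow_mul]
    apply pow_le_pow_of_le_one (by norm_num) (by norm_num)
    have : 2 ^ (D - (ts + 1 + 1)) ≤ 2 ^ 3 := Nat.pow_le_pow_right (by norm_num) (by omega)
    nlinarith
  · set m := min 1 ‖z 0‖
    have hm0 : 0 ≤ m := le_min (by norm_num) (norm_nonneg _)
    have hm1 : m ≤ 1 := min_le_left _ _
    have h1 := pow_le hF hR hD7 (t := 0) hm0 (min_le_right _ _) tw (by omega)
    rw [zero_add] at h1
    have h2 : m ^ 4 ≤ ‖z tw‖ := by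
      refine le_trans (pow_le_pow_of_le_one hm0 hm1 ?_) h1
      calc 2 ^ tw ≤ 2 ^ 2 := Nat.pow_le_pow_right (by norm_num) htw
        _ = 4 := by norm_num
    have h3 : m ^ 8 ≤ ‖z tw‖ ^ 2 := by
      rw [show m ^ 8 = (m ^ 4) ^ 2 by ring]; gcongr
    have h4 := grow_iter (O := O) (t := tw + 1) (j := j) (by linarith) (D - 9)
      (le_trans (O.mono (show tw + 1 + (D - 9) ≤ ts by omega)) (by linarith))
    have h5 := hmin (tw + 1 + (D - 9)) (by omega) (by omega) j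
    have h6 : (aa / 2) ^ (D - 9) * ‖O.x (tw + 1) j‖ ≤ 1 / 4 := by
      rcases min_le_iff.1 (h4.trans h5) with h | h
      · exact h
      · norm_num at h
    have e : aa / 2 = 4 ^ 128 := by unfold aa; ring
    rw [e, ← pow_mul] at h6
    have h7 : (0 : ℝ) ≤ 4 ^ (128 * (D - 9)) := by positivity
    have h8 : 2 / 25 * m ^ 8 ≤ ‖O.x (tw + 1) j‖ := by linarith
    have := mul_le_mul_of_nonneg_left h8 h7
    linarith

end Orb

end Vale.Agent.P103
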