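import Vale.Agent.P103.Map
import Vale.Agent.P103.Link
import Vale.Agent.P103.Ent
import Vale.Agent.P103.HomAlg
import Vale.Agent.P103.Hopf
import Vale.Agent.P103.Cones

/-! The eigenvalue `2` on `H_2` and the assembly. -/

open Manifold
open scoped TensorProduct

noncomputable section

namespace Vale.Agent.P103

theorem sq_eigen (g : C(S2, S2)) (hg : ∀ y, (g y : E3) = Psi y 0) :
    ∃ v : HH S2 2, v ≠ 0 ∧ homMap g 2 v = (2 : ℝ) • v := by
  obtain ⟨σp, σm, τp, τm, ρp, ρm, r, h1, h2, h3, h4, h5, h6, h7, h8, h9, h10, h11, h12, h13, h14,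
    h15⟩ := exists_cones g hg
  obtain ⟨c, hc, hne⟩ := hopf_cocycle
  exact homAlg σp σm τp τm h1 h2 ρp ρm h3 h4 h5 h6 h7 h8 h9 c hc (hne σp σm h1 h13 h14 h15) g r
    h10 h11 h12

@[fun_prop] lemma continuous_ang : Continuous ang := by
  unfold ang; exact Circle.exp.continuous.comp (by fun_prop)

def incl (θ : ℝ) : C(S2, MM) := ⟨fun y => (ang θ, y, NP, NP, NP), by fun_prop⟩

def proj : C(MM, S2) := ⟨fun p => p.2.1, by fun_prop⟩

lemma incl_homotopic (a b : ℝ) : (incl a).Homotopic (incl b) :=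
  ⟨{ toFun := fun q => (ang ((1 - (q.1 : ℝ)) * a + (q.1 : ℝ) * b), q.2, NP, NP, NP)
     continuous_toFun := by fun_prop
     map_zero_left := fun y => by simp [incl]
     map_one_left := fun y => by simp [incl] }⟩

lemma up_zero : up 0 = (NP : E3) := by simp [up, NP]

theorem map_eigen (F : C(MM, MM)) (hF : IsTheMap F) :
    ∃ w : HH MM 2, w ≠ 0 ∧ homMap F 2 w = (2 : ℝ) • w := by
  have hx : ∀ y j, xs (amb (incl (1 / 2) y)) j = 0 := fun y j => by
    fin_cases j <;> simp [xs, amb, incl, NP]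
  have hs : ∀ y j, ss (amb (incl (1 / 2) y)) j = 0 := fun y j => by
    fin_cases j <;> simp [ss, amb, incl, NP]
  have hc : ∀ j, cchi j (ang (1 / 2)) = 0 ∧ cchip j (ang (1 / 2)) = 0 := fun j =>
    chi_zero_left (by norm_num) (by linarith [cj_ge j])
  have hA : cA (ang (1 / 2)) = 0 := bA_zero_left (by norm_num) (by norm_num)
  have hnx : ∀ y j, nx j (amb (incl (1 / 2) y)) = 0 := fun y j => by
    unfold nx
    rw [hx]
    change sat (_ + ((cchi j (ang (1 / 2)) : ℝ) : ℂ) * _) = 0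
    rw [(hc j).1]; simp
  have hns : ∀ y j, ns j (amb (incl (1 / 2) y)) = 0 := fun y j => by
    unfold ns
    rw [hs]
    change _ + cchip j (ang (1 / 2)) / 4 = 0
    rw [(hc j).2]; simp
  set g : C(S2, S2) := proj.comp (F.comp (incl (1 / 2))) with hg
  have hg' : ∀ y, (g y : E3) = Psi y 0 := fun y => by
    change ((F (incl (1 / 2) y)).2.1 : E3) = _
    rw [(hF _).2.1, newz, KK_zero (fun j => by rw [hx]; norm_num), mul_zero]; rfl
  have hcomm : F.comp (incl (1 / 2)) = (incl (1 / 2 + 1)).comp g := by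
    ext1 y
    obtain ⟨a, -, b, c, d⟩ := hF (incl (1 / 2) y)
    refine Prod.ext ?_ (Prod.ext rfl (Prod.ext (Subtype.ext ?_) (Prod.ext (Subtype.ext ?_)
      (Subtype.ext ?_))))
    · change (F (incl (1 / 2) y)).1 = ang (1 / 2 + 1)
      have : vel (amb (incl (1 / 2) y)) = 1 := by
        change 1 - cA (ang (1 / 2)) * _ * _ = 1
        rw [hA]; simp
      rw [a, this, ang_add]; rfl
    · change ((F (incl (1 / 2) y)).2.2.1 : E3) = NP
      rw [b, hnx, up_zero]
    · change ((F (incl (1 / 2) y)).2.2.2.1 : E3) = NP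
      rw [c, hnx, up_zero]
    · change ((F (incl (1 / 2) y)).2.2.2.2 : E3) = NP
      rw [d, ← up_zero]; congr 1
      apply Complex.ext <;> simp only [nsc, hns] <;> rfl
  obtain ⟨v, hv0, hv⟩ := sq_eigen g hg'
  refine ⟨homMap (incl (1 / 2)) 2 v, fun h => hv0 ?_, ?_⟩
  · have h1 := homMap_comp (incl (1 / 2)) proj 2 v
    rw [h, map_zero, show proj.comp (incl (1 / 2)) = ContinuousMap.id S2 from rfl, homMap_id] at h1
    exact h1
  · rw [← homMap_comp, hcomm, homMap_comp, hv, map_smul,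
      homMap_homotopic _ _ (incl_homotopic (1 / 2 + 1) (1 / 2))]

theorem two_le_specRad {X : Type} [TopologicalSpace X] (f : C(X, X)) {d : ℕ} (hd : 2 ≤ d)
    (w : HH X 2) (hw0 : w ≠ 0) (hw : homMap f 2 w = (2 : ℝ) • w) : 2 ≤ specRad f d := by
  have h : Module.End.HasEigenvalue (LinearMap.baseChange ℂ (homMap f 2)) 2 := by
    apply Module.End.hasEigenvalue_of_hasEigenvector (x := (1 : ℂ) ⊗ₜ[ℝ] w)
    refine ⟨Module.End.mem_eigenspace_iff.2 ?_, fun h => hw0 ?_⟩
    · rw [LinearMap.baseChange_tmul, hw, ← TensorProduct.smul_tmul, TensorProduct.smul_tmul']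
      simp
    · exact (Module.FaithfullyFlat.one_tmul_eq_zero_iff ℝ _ w).1 h
  unfold specRad
  refine le_trans ?_ (le_iSup₂_of_le 2 hd (le_iSup₂_of_le (2 : ℂ) h le_rfl))
  rw [← ofReal_norm_eq_enorm]; simp

def theCMap : C(MM, MM) := ⟨theMap, contMDiff_theMap.continuous⟩

theorem main : ∃ f : C(MM, MM), ContMDiff IM IM 1 f ∧ htop f = 0 ∧
    Dynamics.coverEntropy f Set.univ = 0 ∧ Module.End.HasEigenvalue (homMap f 2) 2 ∧
    2 ≤ specRad f 9 := by
  have : Nonempty MM := ⟨(1, NP, NP, NP, NP)⟩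
  obtain ⟨h1, h2⟩ := htop_eq_zero_of_fewJumps theMap (fewJumps isTheMap)
  obtain ⟨w, hw0, hw⟩ := map_eigen theCMap isTheMap
  exact ⟨theCMap, contMDiff_theMap, h1, h2,
    Module.End.hasEigenvalue_of_hasEigenvector ⟨Module.End.mem_eigenspace_iff.2 hw, hw0⟩,
    two_le_specRad _ (by norm_num) w hw0 hw⟩

end Vale.Agent.P103
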