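import Vale.Agent.P103.Sph
import Vale.Agent.P103.KSmooth

/-! The map on the manifold and its smoothness. -/

open Complex ComplexConjugate Manifold

noncomputable section

namespace Vale.Agent.P103

lemma contDiff_cb (c r₁ r₂ : ℝ) : ContDiff ℝ 1 (cb c r₁ r₂) := by
  unfold cb
  apply Real.smoothTransition.contDiff.comp
  apply ContDiff.div_const
  apply ContDiff.sub _ contDiff_const
  exact Complex.reCLM.contDiff.comp (contDiff_id.mul contDiff_const)

lemma contDiff_ofReal {E : Type*} [NormedAddCommGroup E] [NormedSpace ℝ E] {f : E → ℝ}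
    (hf : ContDiff ℝ 1 f) : ContDiff ℝ 1 (fun x => (f x : ℂ)) :=
  Complex.ofRealCLM.contDiff.comp hf

lemma contDiff_normSq : ContDiff ℝ 1 (fun u : ℂ => ‖u‖ ^ 2) := contDiff_norm_sq ℝ

lemma contDiff_sat : ContDiff ℝ 1 sat := by
  unfold sat
  refine (contDiff_ofReal ?_).mul contDiff_id
  refine ContDiff.inv (ContDiff.sqrt (contDiff_const.add contDiff_normSq) (fun u => ?_))
    (fun u => ?_) <;> positivity

lemma contDiff_xs (j : Fin 2) : ContDiff ℝ 1 (fun q : AA => xs q j) := by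
  fin_cases j
  · exact contDiff_cz.comp (by fun_prop : ContDiff ℝ 1 fun q : AA => q.2.2.1)
  · exact contDiff_cz.comp (by fun_prop : ContDiff ℝ 1 fun q : AA => q.2.2.2.1)

lemma contDiff_ss (j : Fin 2) : ContDiff ℝ 1 (fun q : AA => ss q j) := by
  have h := contDiff_cz.comp (by fun_prop : ContDiff ℝ 1 fun q : AA => q.2.2.2.2)
  fin_cases j
  · exact Complex.reCLM.contDiff.comp h
  · exact Complex.imCLM.contDiff.comp h

lemma contDiff_chq : ContDiff ℝ 1 (fun q : AA => ch q.2.1) :=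
  contDiff_ch.comp (by fun_prop : ContDiff ℝ 1 fun q : AA => q.2.1)

lemma contDiff_czq : ContDiff ℝ 1 (fun q : AA => cz q.2.1) :=
  contDiff_cz.comp (by fun_prop : ContDiff ℝ 1 fun q : AA => q.2.1)

lemma contDiff_cbq (c r₁ r₂ : ℝ) : ContDiff ℝ 1 (fun q : AA => cb c r₁ r₂ q.1) :=
  (contDiff_cb c r₁ r₂).comp contDiff_fst

lemma contDiff_vel : ContDiff ℝ 1 vel := by
  unfold vel WW βy cA
  exact contDiff_const.sub (((contDiff_cbq _ _ _).mul
    ((b1.contDiff.comp (contDiff_xs 0)).mul (b1.contDiff.comp (contDiff_xs 1)))).mul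
    (contDiff_const.sub (bβ.contDiff.comp contDiff_chq)))

lemma contDiff_nx (j : Fin 2) : ContDiff ℝ 1 (nx j) := by
  unfold nx ck cchi wy
  refine contDiff_sat.comp (ContDiff.add ?_ ?_)
  · exact (contDiff_ofReal (contDiff_const.mul (contDiff_const.sub (contDiff_cbq _ _ _)))).mul
      (contDiff_xs j)
  · exact (contDiff_ofReal (contDiff_cbq _ _ _)).mul
      ((contDiff_ofReal (bσ.contDiff.comp contDiff_chq)).mul (contDiff_czq.pow 2))

lemma contDiff_ns (j : Fin 2) : ContDiff ℝ 1 (ns j) := by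
  unfold ns ckp cchip
  exact (((contDiff_const.sub (contDiff_cbq _ _ _)).mul (contDiff_ss j)).div_const 2).add
    ((contDiff_cbq _ _ _).div_const 4)

lemma contDiff_nsc : ContDiff ℝ 1 nsc := by
  have : nsc = fun q => (ns 0 q : ℂ) + (ns 1 q : ℂ) * I := by
    funext q; apply Complex.ext <;> simp [nsc]
  rw [this]
  exact (contDiff_ofReal (contDiff_ns 0)).add ((contDiff_ofReal (contDiff_ns 1)).mul contDiff_const)

lemma contDiff_kap : ContDiff ℝ 1 (fun q : AA => (BB : ℂ) * KK (ss q) (xs q)) := by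
  unfold KK
  exact contDiff_const.mul ((contDiff_K1.comp ((contDiff_ss 0).prodMk (contDiff_xs 0))).add
    (contDiff_K1.comp ((contDiff_ss 1).prodMk (contDiff_xs 1))))

lemma contDiffAt_up {ζ : ℂ} (h : ‖ζ‖ < 1) : ContDiffAt ℝ 1 up ζ := by
  unfold up
  refine contDiff_mk3.contDiffAt.comp ζ (f := fun ζ : ℂ => (ζ, √(1 - ‖ζ‖ ^ 2))) ?_
  refine contDiffAt_id.prodMk (ContDiffAt.sqrt (contDiff_const.sub contDiff_normSq).contDiffAt ?_)
  have := norm_nonneg ζ
  nlinarith

lemma contDiffAt_Psi (y : S2) (κ : ℂ) :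
    ContDiffAt ℝ 1 (fun r : E3 × ℂ => Psi r.1 r.2) ((y : E3), κ) := by
  have hh : ContDiff ℝ 1 (fun r : E3 × ℂ => ch r.1) := contDiff_ch.comp contDiff_fst
  have hz : ContDiff ℝ 1 (fun r : E3 × ℂ => cz r.1) := contDiff_cz.comp contDiff_fst
  have hQ : ContDiff ℝ 1 (fun r : E3 × ℂ => (1 + ch r.1) ^ 2) := (contDiff_const.add hh).pow 2
  have hD : ContDiff ℝ 1 (fun r : E3 × ℂ => DD r.1 r.2) := by
    unfold DD
    refine (((contDiff_const.sub hh).pow 2).add (contDiff_const.mul ?_)).add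
      (hQ.mul (contDiff_normSq.comp contDiff_snd))
    exact Complex.reCLM.contDiff.comp ((hz.pow 2).mul
      (Complex.conjCLE.contDiff.comp contDiff_snd))
  unfold Psi
  refine ContDiffAt.smul ((hQ.add hD).contDiffAt.inv (den_pos y κ).ne') ?_
  exact (contDiff_mk3.comp ((contDiff_const.mul ((hz.pow 2).add
    ((contDiff_ofReal hQ).mul contDiff_snd))).prodMk (hQ.sub hD))).contDiffAt

lemma contDiffAt_newz (p : MM) : ContDiffAt ℝ 1 newz (amb p) :=
  (contDiffAt_Psi p.2.1 _).comp (amb p) (f := fun q : AA => (q.2.1, (BB : ℂ) * KK (ss q) (xs q)))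
    ((by fun_prop : ContDiff ℝ 1 fun q : AA => q.2.1).prodMk contDiff_kap).contDiffAt

lemma contMDiff_amb : ContMDiff IM 𝓘(ℝ, AA) 1 amb := by
  have := finrank_real_complex_fact'
  have : Fact (Module.finrank ℝ E3 = 2 + 1) := ⟨by simp⟩
  have h1 : ContMDiff (𝓡 1) 𝓘(ℝ, ℂ) 1 (fun w : Circle => (w : ℂ)) :=
    contMDiff_coe_sphere (E := ℂ) (n := 1)
  have h2 : ContMDiff (𝓡 2) 𝓘(ℝ, E3) 1 (fun w : S2 => (w : E3)) :=
    contMDiff_coe_sphere (E := E3) (n := 2)
  unfold amb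
  refine (h1.comp contMDiff_fst).prodMk_space ((h2.comp (contMDiff_fst.comp contMDiff_snd)).prodMk_space
    ((h2.comp (contMDiff_fst.comp (contMDiff_snd.comp contMDiff_snd))).prodMk_space
    ((h2.comp (contMDiff_fst.comp (contMDiff_snd.comp (contMDiff_snd.comp contMDiff_snd)))).prodMk_space
    (h2.comp (contMDiff_snd.comp (contMDiff_snd.comp (contMDiff_snd.comp contMDiff_snd)))))))

lemma contMDiff_of_amb {G : AA → E3} (hG : ∀ p, ContDiffAt ℝ 1 G (amb p))
    (hm : ∀ p, G (amb p) ∈ Metric.sphere (0 : E3) 1) :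
    ContMDiff IM (𝓡 2) 1 (fun p : MM => (⟨G (amb p), hm p⟩ : S2)) := by
  have hh : ContMDiff IM 𝓘(ℝ, E3) 1 (fun p => G (amb p)) := fun p =>
    (hG p).comp_contMDiffAt (contMDiff_amb p)
  have : Fact (Module.finrank ℝ E3 = 2 + 1) := ⟨by simp⟩
  exact hh.codRestrict_sphere hm

def theMap (p : MM) : MM :=
  (p.1 * ang (vel (amb p)), ⟨newz (amb p), Psi_mem _ _⟩, ⟨up (nx 0 (amb p)), up_mem (norm_sat_lt _).le⟩,
    ⟨up (nx 1 (amb p)), up_mem (norm_sat_lt _).le⟩, ⟨up (nsc (amb p)), up_mem (norm_nsc_lt p).le⟩)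

lemma isTheMap : IsTheMap theMap := fun _ => ⟨rfl, rfl, rfl, rfl, rfl⟩

theorem contMDiff_theMap : ContMDiff IM IM 1 theMap := by
  have h1 : ContMDiff IM (𝓡 1) 1 (fun p : MM => p.1 * ang (vel (amb p))) := by
    refine contMDiff_fst.mul ?_
    have : ContMDiff IM 𝓘(ℝ, ℝ) 1 (fun p => Real.pi / 3 * vel (amb p)) :=
      (contDiff_const.mul contDiff_vel).comp_contMDiff contMDiff_amb
    exact contMDiff_circleExp.comp this
  exact h1.prodMk ((contMDiff_of_amb contDiffAt_newz _).prodMk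
    ((contMDiff_of_amb (G := fun q => up (nx 0 q)) (fun p => (contDiffAt_up (ζ := nx 0 (amb p))
      (norm_sat_lt _)).comp (amb p) (contDiff_nx 0).contDiffAt) _).prodMk
    ((contMDiff_of_amb (G := fun q => up (nx 1 q)) (fun p => (contDiffAt_up (ζ := nx 1 (amb p))
      (norm_sat_lt _)).comp (amb p) (contDiff_nx 1).contDiffAt) _).prodMk
    (contMDiff_of_amb (G := fun q => up (nsc q)) (fun p => (contDiffAt_up (norm_nsc_lt p)).comp _
      contDiff_nsc.contDiffAt) _))))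

end Vale.Agent.P103
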