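import Vale.Agent.P103.Loop

/-! The number of loops made in time `N` is logarithmic in `N`. -/

noncomputable section

namespace Vale.Agent.P103

namespace Orb

def shift (O : Orb) (t₀ : ℕ) (q : ℤ) : Orb where
  θ t := O.θ (t₀ + t) - 6 * q
  x t := O.x (t₀ + t)
  s t := O.s (t₀ + t)
  β t := O.β (t₀ + t)
  w t := O.w (t₀ + t)
  θ_succ t := by rw [bA_sub, ← add_assoc, O.θ_succ]; ring
  x_succ t j := by rw [bk_sub, bchi_sub, ← add_assoc, O.x_succ]
  s_succ t j := by rw [bkp_sub, bchip_sub, ← add_assoc, O.s_succ]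
  β_nonneg t := O.β_nonneg _
  β_le t := O.β_le _
  x_le t j := O.x_le _ j
  s_le t j := O.s_le _ j

variable {O : Orb} {z : ℕ → ℂ}

lemma shift_θ (t₀ : ℕ) (q : ℤ) (t : ℕ) : (O.shift t₀ q).θ t = O.θ (t₀ + t) - 6 * q := rfl

lemma Fz.shift (hF : O.Fz z) (t₀ : ℕ) (q : ℤ) : (O.shift t₀ q).Fz (fun t => z (t₀ + t)) where
  z_succ t := hF.z_succ (t₀ + t)
  β_one t := hF.β_one (t₀ + t)
  β_zero t := hF.β_zero (t₀ + t)
  w_eq t := hF.w_eq (t₀ + t)
  w_le t := hF.w_le (t₀ + t)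

lemma Inf.shift (hI : O.Inf) (t₀ : ℕ) (q : ℤ) : (O.shift t₀ q).Inf := fun t => hI (t₀ + t)

lemma exists_first (h0 : O.θ 0 < 7) {N : ℕ} (hN : 7 ≤ O.θ N) :
    ∃ D ≤ N, (∀ t < D, O.θ t < 7) ∧ 7 ≤ O.θ D := by
  classical
  have hex : ∃ D, 7 ≤ O.θ D := ⟨N, hN⟩
  exact ⟨Nat.find hex, Nat.find_min' hex hN, fun t ht => not_le.1 (Nat.find_min hex ht),
    Nat.find_spec hex⟩

lemma reset_shift (h0 : O.θ 0 < 7) {D : ℕ} (hD : ∀ t < D, O.θ t < 7) (hD' : 7 ≤ O.θ D) :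
    (O.shift D 1).Reset := by
  obtain ⟨s, rfl⟩ : ∃ s, D = s + 1 := by
    rcases D with _ | s
    · linarith
    · exact ⟨s, rfl⟩
  have h1 := hD s (by omega)
  have h2 := O.step_le s
  obtain ⟨h3, h4⟩ := kill (O := O) (t := s) (by linarith) h1.le
  refine ⟨?_, ?_, h4⟩
  · rw [shift_θ]; push_cast; simp only [add_zero]; linarith
  · rw [shift_θ]; push_cast; simp only [add_zero]; linarith

lemma next_lt_two (hF : O.Fz z) (h0 : O.θ 0 < 7) {D N : ℕ} (hD : ∀ t < D, O.θ t < 7)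
    (hD' : 7 ≤ O.θ D) (hN : 13 ≤ O.θ N) :
    ‖z D‖ < 2 ∧ D ≤ N ∧ ∃ D' ≤ N - D, (∀ t < D', (O.shift D 1).θ t < 7) ∧
      7 ≤ (O.shift D 1).θ D' := by
  have hR := reset_shift h0 hD hD'
  have hDN : D ≤ N := by
    by_contra hh; have := hD N (by omega); linarith
  obtain ⟨D', h1, h2, h3⟩ := exists_first (O := O.shift D 1) (N := N - D) (by linarith [hR.2.1])
    (by rw [shift_θ, show D + (N - D) = N by omega]; push_cast; linarith)
  exact ⟨loop_lt_two (hF.shift D 1) hR (fun t ht => (h2 t ht).le) h3, hDN, D', h1, h2, h3⟩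

lemma progress_reset (m : ℕ) : ∀ (O : Orb) (z : ℕ → ℂ), O.Fz z → O.Reset → ∀ N : ℕ,
    13 + 6 * (m : ℝ) ≤ O.θ N → ∀ D, (∀ t < D, O.θ t < 7) → 7 ≤ O.θ D → 18 + 2 ^ m ≤ D := by
  induction m with
  | zero =>
    intro O z hF hR N hN D hD hD'
    have h1 := (next_lt_two (N := N) hF (by linarith [hR.2.1]) hD hD' (by simpa using hN)).1
    have := (loop_ineq hF hR hD hD' h1).1
    omega
  | succ m ih =>
    intro O z hF hR N hN D hD hD'
    push_cast at hN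
    have hm : (0 : ℝ) ≤ m := Nat.cast_nonneg m
    obtain ⟨h1, hDN, D', -, h2, h3⟩ :=
      next_lt_two (N := N) hF (by linarith [hR.2.1]) hD hD' (by linarith)
    have hR' := reset_shift (by linarith [hR.2.1]) hD hD'
    have hN' : 13 + 6 * (m : ℝ) ≤ (O.shift D 1).θ (N - D) := by
      rw [shift_θ, show D + (N - D) = N by omega]; push_cast; linarith
    have h4 := ih _ _ (hF.shift D 1) hR' (N - D) hN' D' h2 h3
    have h5 := (next_lt_two (N := N - D) (hF.shift D 1) (by linarith [hR'.2.1]) h2 h3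
      (by linarith)).1
    have h6 := (loop_ineq (hF.shift D 1) hR' h2 h3 h5).2.2
    have h7 := (loop_ineq hF hR hD hD' h1).2.1
    simp only [add_zero] at h6
    have h8 : (1 / 4 : ℝ) ^ (8 * D) ≤ min 1 ‖z D‖ :=
      le_min (pow_le_one₀ (by norm_num) (by norm_num)) h7
    have h9 : (4 : ℝ) ^ (128 * (D' - 9)) * ((1 / 4) ^ (8 * D)) ^ 8 ≤ 4 :=
      le_trans (by gcongr) h6
    have h10 : (4 : ℝ) ^ (128 * (D' - 9)) ≤ 4 ^ (64 * D + 1) := by
      have e : ((1 / 4 : ℝ) ^ (8 * D)) ^ 8 * 4 ^ (64 * D) = 1 := by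
        rw [← pow_mul, show 8 * D * 8 = 64 * D by ring, ← mul_pow]; norm_num
      calc (4 : ℝ) ^ (128 * (D' - 9))
          = 4 ^ (128 * (D' - 9)) * ((1 / 4) ^ (8 * D)) ^ 8 * 4 ^ (64 * D) := by
            rw [mul_assoc, e, mul_one]
        _ ≤ 4 * 4 ^ (64 * D) := by gcongr
        _ = _ := by ring
    have h11 := (pow_le_pow_iff_right₀ (by norm_num : (1 : ℝ) < 4)).1 h10
    rw [pow_succ]
    omega

theorem progress (h : O.Inf ∨ ∃ z, O.Fz z) (N : ℕ) :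
    O.θ N - O.θ 0 ≤ 25 + 6 * (Nat.log 2 N : ℝ) := by
  set q : ℤ := ⌊(O.θ 0 - 1) / 6⌋
  have h1 : (q : ℝ) ≤ (O.θ 0 - 1) / 6 := Int.floor_le _
  have h2 : (O.θ 0 - 1) / 6 < q + 1 := Int.lt_floor_add_one _
  have hl : (0 : ℝ) ≤ Nat.log 2 N := Nat.cast_nonneg _
  set O₁ := O.shift 0 q with hO₁
  have e : ∀ t, O₁.θ t = O.θ t - 6 * q := fun t => by rw [hO₁, shift_θ, zero_add]
  have h0 : O₁.θ 0 < 7 := by rw [e]; linarith
  by_cases hN : O₁.θ N < 7
  · rw [e] at hN; linarith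
  obtain ⟨D, hDN, hD, hD'⟩ := exists_first h0 (not_lt.1 hN)
  have hR := reset_shift h0 hD hD'
  have e' : (O₁.shift D 1).θ (N - D) = O.θ N - 6 * q - 6 := by
    rw [shift_θ, show D + (N - D) = N by omega, e]; push_cast; ring
  rcases h with hI | ⟨z, hF⟩
  · have hI' := (hI.shift 0 q).shift D 1
    have := (stuck hR (D := N - D) (fun t _ _ => ⟨(hI' t).2, (hI' t).1⟩) _ le_rfl).1
    linarith
  · have hF' := (hF.shift 0 q).shift D 1
    by_contra hh
    push Not at hh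
    obtain ⟨D', h3, h4, h5⟩ := exists_first (O := O₁.shift D 1) (N := N - D)
      (by linarith [hR.2.1]) (by linarith)
    have := progress_reset (Nat.log 2 N + 1) _ _ hF' hR (N - D) (by push_cast; linarith) D' h4 h5
    have := Nat.lt_pow_succ_log_self (b := 2) (by norm_num) N
    simp only [Nat.succ_eq_add_one] at this
    omega

end Orb

end Vale.Agent.P103
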