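import Vale.Agent.P103.Basic

/-! The Riemann sphere: the map `z ↦ z ^ 2 + κ`, bump functions and distances. -/

open Complex ComplexConjugate

noncomputable section

namespace Vale.Agent.P103

lemma ch_ge (y : S2) : -1 ≤ ch y := by
  have := S2_eq y; nlinarith [sq_nonneg ‖cz y‖]
lemma ch_le (y : S2) : ch y ≤ 1 := by
  have := S2_eq y; nlinarith [sq_nonneg ‖cz y‖]
lemma norm_cz_le (y : S2) : ‖cz y‖ ≤ 1 := by
  have := S2_eq y; nlinarith [sq_nonneg (ch y), norm_nonneg (cz y)]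

lemma normP (y : S2) (κ : ℂ) :
    ‖cz y ^ 2 + (((1 + ch y) ^ 2 : ℝ) : ℂ) * κ‖ ^ 2 = (1 + ch y) ^ 2 * DD y κ := by
  have h := S2_eq y
  unfold DD
  rw [Complex.sq_norm, Complex.normSq_add, Complex.normSq_eq_norm_sq, Complex.normSq_eq_norm_sq,
    norm_pow, norm_mul, Complex.norm_real, Real.norm_eq_abs, abs_of_nonneg (by positivity),
    map_mul, Complex.conj_ofReal, mul_left_comm, Complex.re_ofReal_mul]
  have : ‖cz y‖ ^ 2 = (1 - ch y) * (1 + ch y) := by linarith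
  rw [this]; ring

lemma cz_eq_zero_of_south {y : S2} (h : ch y = -1) : cz y = 0 := by
  have := S2_eq y
  rw [h] at this
  have : ‖cz y‖ ^ 2 = 0 := by linarith
  simpa using this

lemma DD_nonneg (y : S2) (κ : ℂ) : 0 ≤ DD y κ := by
  by_cases h : ch y = -1
  · unfold DD; rw [cz_eq_zero_of_south h, h]; norm_num
  · have h1 : 0 < (1 + ch y) ^ 2 := by
      have : 1 + ch y ≠ 0 := fun hh => h (by linarith)
      positivity
    have := normP y κ
    by_contra hh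
    push Not at hh
    nlinarith [sq_nonneg ‖cz y ^ 2 + (((1 + ch y) ^ 2 : ℝ) : ℂ) * κ‖]

lemma den_pos (y : S2) (κ : ℂ) : 0 < (1 + ch y) ^ 2 + DD y κ := by
  by_cases h : ch y = -1
  · unfold DD; rw [cz_eq_zero_of_south h, h]; norm_num
  · have h1 : 0 < (1 + ch y) ^ 2 := by
      have : 1 + ch y ≠ 0 := fun hh => h (by linarith)
      positivity
    linarith [DD_nonneg y κ]

lemma Psi_mem (y : S2) (κ : ℂ) : Psi y κ ∈ Metric.sphere (0 : E3) 1 := by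
  rw [mem_S2_iff]
  have hd := den_pos y κ
  have hP := normP y κ
  unfold Psi
  rw [cz_smul, ch_smul, cz_mk3, ch_mk3, norm_mul, norm_mul, mul_pow, mul_pow, hP,
    Complex.norm_real, Real.norm_eq_abs, abs_of_nonneg (by positivity)]
  simp only [Complex.norm_ofNat]
  field_simp
  ring

lemma Psi_inf {y : S2} (h : ch y = -1) (κ : ℂ) : ch (Psi y κ) = -1 := by
  unfold Psi DD
  rw [ch_smul, ch_mk3, cz_eq_zero_of_south h, h]; norm_num

lemma one_add_ch_Psi (y : S2) (κ : ℂ) :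
    1 + ch (Psi y κ) = 2 * (1 + ch y) ^ 2 / ((1 + ch y) ^ 2 + DD y κ) := by
  have hd := den_pos y κ
  unfold Psi
  rw [ch_smul, ch_mk3]; field_simp; ring

lemma Psi_fin {y : S2} (h : ch y ≠ -1) (κ : ℂ) :
    ch (Psi y κ) ≠ -1 ∧ st (Psi y κ) = st y ^ 2 + κ := by
  have hd := den_pos y κ
  have h0 : 1 + ch y ≠ 0 := fun hh => h (by linarith)
  have h1 := one_add_ch_Psi y κ
  constructor
  · intro hh
    have : 0 < 2 * (1 + ch y) ^ 2 / ((1 + ch y) ^ 2 + DD y κ) := by positivity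
    linarith
  · unfold st
    rw [h1]
    unfold Psi
    rw [cz_smul, cz_mk3]
    have h2 : ((1 + ch y : ℝ) : ℂ) ≠ 0 := by exact_mod_cast h0
    have h3 : (((1 + ch y) ^ 2 + DD y κ : ℝ) : ℂ) ≠ 0 := by exact_mod_cast hd.ne'
    push_cast at h2 h3 ⊢
    field_simp

lemma st_sq {y : S2} (h : ch y ≠ -1) : ‖st y‖ ^ 2 * (1 + ch y) = 1 - ch y := by
  have h0 : 0 < 1 + ch y := by
    have := ch_ge y
    rcases this.eq_or_lt with h1 | h1
    · exact absurd h1.symm h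
    · linarith
  have := S2_eq y
  unfold st
  rw [norm_div, Complex.norm_real, Real.norm_eq_abs, abs_of_pos h0, div_pow]
  field_simp
  nlinarith

lemma cz_eq_st {y : S2} (h : ch y ≠ -1) : cz y = ((1 + ch y : ℝ) : ℂ) * st y := by
  have h0 : ((1 + ch y : ℝ) : ℂ) ≠ 0 := by
    exact_mod_cast (fun hh => h (by linarith) : 1 + ch y ≠ 0)
  unfold st; field_simp

lemma βy_one {y : S2} (h : ch y ≠ -1) (h1 : 1 / 2 ≤ ‖st y‖) (h2 : ‖st y‖ ≤ 2) : βy y = 1 := by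
  have h3 := st_sq h
  have h4 := ch_ge y
  apply bβ.one_of_mem_closedBall
  simp only [bβ, Metric.mem_closedBall, dist_zero_right, Real.norm_eq_abs, abs_le]
  have a : 1 / 4 ≤ ‖st y‖ ^ 2 := by nlinarith
  have b : ‖st y‖ ^ 2 ≤ 4 := by nlinarith
  constructor <;> nlinarith

lemma βy_zero_of {y : E3} (h : 15 / 17 ≤ |ch y|) : βy y = 0 :=
  bβ.zero_of_le_dist (by simpa [bβ] using h)

lemma ch_far {y : S2} (h : ch y ≠ -1) (h1 : 4 ≤ ‖st y‖) : ch y ≤ -(15 / 17) := by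
  have h3 := st_sq h
  have h4 := ch_ge y
  have a : 16 ≤ ‖st y‖ ^ 2 := by nlinarith
  nlinarith

lemma βy_zero {y : S2} (h : ch y ≠ -1) (h1 : ‖st y‖ ≤ 1 / 4 ∨ 4 ≤ ‖st y‖) : βy y = 0 := by
  apply βy_zero_of
  rcases h1 with h1 | h1
  · have h3 := st_sq h
    have h4 := ch_ge y
    have a : ‖st y‖ ^ 2 ≤ 1 / 16 := by nlinarith [norm_nonneg (st y)]
    exact le_trans (by nlinarith) (le_abs_self _)
  · exact le_trans (by linarith [ch_far h h1]) (neg_le_abs _)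

lemma wy_eq {y : S2} (h : ch y ≠ -1) : ∃ r : ℝ, 0 ≤ r ∧ (‖st y‖ ≤ 2 → 4 / 25 ≤ r) ∧
    (4 ≤ ‖st y‖ → r = 0) ∧ wy y = (r : ℂ) * st y ^ 2 := by
  have hσ : 0 ≤ bσ (ch y) := bσ.nonneg
  refine ⟨bσ (ch y) * (1 + ch y) ^ 2, by positivity, fun h1 => ?_, fun h1 => ?_, ?_⟩
  · have h3 := st_sq h
    have h4 := ch_ge y
    have h5 := ch_le y
    have b : ‖st y‖ ^ 2 ≤ 4 := by nlinarith [norm_nonneg (st y)]
    have h6 : -(3 / 5) ≤ ch y := by nlinarith
    have : bσ (ch y) = 1 := by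
      apply bσ.one_of_mem_closedBall
      simp only [bσ, Metric.mem_closedBall, Real.dist_eq, abs_le]
      constructor <;> linarith
    rw [this]; nlinarith
  · have h6 := ch_far h h1
    have : bσ (ch y) = 0 := by
      apply bσ.zero_of_le_dist
      simp only [bσ, Real.dist_eq]
      rw [abs_of_nonpos (by linarith)]; linarith
    rw [this, zero_mul]
  · unfold wy; rw [cz_eq_st h]; push_cast; ring

lemma norm_wy_le (y : S2) : ‖wy y‖ ≤ 1 := by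
  unfold wy
  rw [norm_mul, norm_pow, Complex.norm_real, Real.norm_eq_abs, abs_of_nonneg bσ.nonneg]
  exact mul_le_one₀ bσ.le_one (by positivity) (pow_le_one₀ (norm_nonneg _) (norm_cz_le y))

lemma south_βw {y : S2} (h : ch y = -1) : βy y = 0 ∧ wy y = 0 :=
  ⟨βy_zero_of (by rw [h]; norm_num), by unfold wy; rw [cz_eq_zero_of_south h]; simp⟩

lemma dist_sq_S2 (y y' : S2) : dist y y' ^ 2 = ‖cz y - cz y'‖ ^ 2 + (ch y - ch y') ^ 2 := by
  rw [Subtype.dist_eq, dist_eq_norm, norm_sq_E3, cz_sub, ch_sub]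

lemma dist_NP {y : S2} (h : ch y ≠ -1) {ε : ℝ} (h1 : ‖st y‖ ≤ ε) : dist y NP ≤ 2 * ε := by
  have h2 := dist_sq_S2 y NP
  have h3 := st_sq h
  have h4 := S2_eq y
  have h5 := ch_le y
  have h0 := norm_nonneg (st y)
  simp only [NP, cz_mk3, ch_mk3, sub_zero] at h2
  apply le_of_pow_le_pow_left₀ two_ne_zero (by linarith)
  have : ‖st y‖ ^ 2 ≤ ε ^ 2 := by gcongr
  simp only [NP]
  nlinarith [sq_nonneg ‖st y‖]

lemma dist_SP {y : S2} (h : ch y ≠ -1) {ε : ℝ} (hε : 0 < ε) (h1 : 1 / ε ≤ ‖st y‖) :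
    dist y SP ≤ 2 * ε := by
  have h2 := dist_sq_S2 y SP
  have h3 := st_sq h
  have h4 := S2_eq y
  have h5 := ch_ge y
  simp only [SP, cz_mk3, ch_mk3, sub_zero] at h2
  apply le_of_pow_le_pow_left₀ two_ne_zero (by linarith)
  have h6 : 1 ≤ ε * ‖st y‖ := by rwa [div_le_iff₀' hε] at h1
  have h7 : 1 ≤ ε ^ 2 * ‖st y‖ ^ 2 := by nlinarith
  have h8 : 1 + ch y ≤ ε ^ 2 * (1 - ch y) := by
    rw [← h3]; nlinarith
  simp only [SP]
  nlinarith [sq_nonneg ε]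

lemma eq_SP {y : S2} (h : ch y = -1) : y = SP :=
  Subtype.ext (ext3 (by simp [SP, cz_eq_zero_of_south h]) (by simp [SP, h]))

@[simp] lemma cz_up (ζ : ℂ) : cz (up ζ) = ζ := by simp [up]

lemma up_mem {ζ : ℂ} (h : ‖ζ‖ ≤ 1) : up ζ ∈ Metric.sphere (0 : E3) 1 := by
  rw [mem_S2_iff, up, cz_mk3, ch_mk3, Real.sq_sqrt (by nlinarith [norm_nonneg ζ])]; ring

lemma dist_up {y : S2} {ζ : ℂ} (h : (y : E3) = up ζ) {ε : ℝ} (h1 : ‖ζ‖ ≤ ε) :
    dist y NP ≤ 2 * ε := by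
  have h2 := dist_sq_S2 y NP
  have h4 := S2_eq y
  have h5 := ch_le y
  have h6 : 0 ≤ ch y := by rw [h, up, ch_mk3]; positivity
  have h7 : cz y = ζ := by rw [h, cz_up]
  have h0 := norm_nonneg ζ
  simp only [NP, cz_mk3, ch_mk3, sub_zero] at h2
  apply le_of_pow_le_pow_left₀ two_ne_zero (by linarith)
  rw [h7] at h2 h4
  have : ‖ζ‖ ^ 2 ≤ ε ^ 2 := by gcongr
  simp only [NP]
  nlinarith [sq_nonneg ε]

lemma norm_nsc_lt (p : MM) : ‖nsc (amb p)‖ < 1 := by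
  have h1 := norm_cz_le p.2.2.2.2
  have h2 : (ss (amb p) 0) ^ 2 + (ss (amb p) 1) ^ 2 ≤ 1 := by
    have : ‖cz p.2.2.2.2‖ ^ 2 ≤ 1 := pow_le_one₀ (norm_nonneg _) h1
    rw [Complex.sq_norm, Complex.normSq_apply] at this
    simp only [ss, amb, Matrix.cons_val_zero, Matrix.cons_val_one]
    nlinarith
  have k0 := ckp_nonneg (amb p).1
  have k1 := ckp_le_one (amb p).1
  have a0 : 0 ≤ cchip 0 (amb p).1 := cb_nonneg _ _ _ _
  have a1 : cchip 0 (amb p).1 ≤ 1 := cb_le_one _ _ _ _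
  have b0 : 0 ≤ cchip 1 (amb p).1 := cb_nonneg _ _ _ _
  have b1 : cchip 1 (amb p).1 ≤ 1 := cb_le_one _ _ _ _
  apply lt_of_pow_lt_pow_left₀ 2 (by norm_num)
  rw [Complex.sq_norm, Complex.normSq_apply]
  simp only [nsc, ns]
  set k := ckp (amb p).1
  set s0 := ss (amb p) 0
  set s1 := ss (amb p) 1
  set a := cchip 0 (amb p).1
  set b := cchip 1 (amb p).1
  have e0 : (k * s0 / 2 + a / 4) * (k * s0 / 2 + a / 4) ≤ (k * s0) ^ 2 / 2 + a ^ 2 / 8 := by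
    nlinarith [sq_nonneg (k * s0 / 2 - a / 4)]
  have e1 : (k * s1 / 2 + b / 4) * (k * s1 / 2 + b / 4) ≤ (k * s1) ^ 2 / 2 + b ^ 2 / 8 := by
    nlinarith [sq_nonneg (k * s1 / 2 - b / 4)]
  have e2 : (k * s0) ^ 2 + (k * s1) ^ 2 ≤ 1 := by
    have : k ^ 2 ≤ 1 := by nlinarith
    nlinarith [sq_nonneg s0, sq_nonneg s1]
  nlinarith

end Vale.Agent.P103
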