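import Mathlib

/-! Definitions used in the statement of the hand-in for P103. -/

open Filter Topology Manifold
open scoped ENNReal

noncomputable section

namespace Vale.Agent.P103

/-- The Bowen distance `d_n(x,y) = max_{0 ≤ j < n} d(f^j x, f^j y)`. -/
def bowenDist {X : Type} [MetricSpace X] (f : X → X) (n : ℕ) (x y : X) : ℝ :=
  ⨆ j : Fin n, dist (f^[j] x) (f^[j] y)

/-- `s_f(n, ε)`: the largest cardinality of a set whose distinct points have `d_n > ε`. -/
def sepNum {X : Type} [MetricSpace X] (f : X → X) (n : ℕ) (ε : ℝ) : ℝ≥0∞ :=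
  ⨆ (S : Set X) (_ : ∀ x ∈ S, ∀ y ∈ S, x ≠ y → ε < bowenDist f n x y), (S.encard : ℝ≥0∞)

/-- Topological entropy: the limit as `ε ↓ 0` of `limsup_n (1/n) log s_f(n, ε)`. -/
def htop {X : Type} [MetricSpace X] (f : X → X) : EReal :=
  limUnder (𝓝[>] (0 : ℝ))
    (fun ε => limsup (fun n : ℕ => ENNReal.log (sepNum f n ε) / (n : EReal)) atTop)

/-- Singular homology `H_k(X; ℝ)`. -/
abbrev HH (X : Type) [TopologicalSpace X] (k : ℕ) : ModuleCat.{0} ℝ :=
  ((AlgebraicTopology.singularHomologyFunctor (ModuleCat.{0} ℝ) k).obj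
    (ModuleCat.of ℝ ℝ)).obj (TopCat.of X)

/-- The linear map `f_{*k}` induced on singular homology with real coefficients. -/
def homMap {X Y : Type} [TopologicalSpace X] [TopologicalSpace Y] (f : C(X, Y)) (k : ℕ) :
    HH X k →ₗ[ℝ] HH Y k :=
  (((AlgebraicTopology.singularHomologyFunctor (ModuleCat.{0} ℝ) k).obj
    (ModuleCat.of ℝ ℝ)).map (TopCat.ofHom f)).hom

/-- `ρ(f_*)`: the largest modulus of a complex eigenvalue of `f_*` on `H_0 ⊕ ... ⊕ H_d`. -/
def specRad {X : Type} [TopologicalSpace X] (f : C(X, X)) (d : ℕ) : ℝ≥0∞ :=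
  ⨆ (k : ℕ) (_ : k ≤ d) (μ : ℂ)
    (_ : Module.End.HasEigenvalue (LinearMap.baseChange ℂ (homMap f k)) μ), ‖μ‖ₑ

/-- The unit sphere in three-space. -/
abbrev S2 : Type := Metric.sphere (0 : EuclideanSpace ℝ (Fin 3)) 1

/-- The manifold `S^1 × S^2 × S^2 × S^2 × S^2`. -/
abbrev MM : Type := Circle × S2 × S2 × S2 × S2

/-- The product model for `MM`. -/
abbrev IM := (𝓡 1).prod ((𝓡 2).prod ((𝓡 2).prod ((𝓡 2).prod (𝓡 2))))

end Vale.Agent.P103
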