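import Vale.Agent.P103.Basic

/-! One step of an abstract orbit; the phase invariant. -/

noncomputable section

namespace Vale.Agent.P103

lemma aa_ge : (512 : ℝ) ≤ aa := by
  have : (4 : ℝ) ^ 4 ≤ 4 ^ 128 := pow_le_pow_right₀ (by norm_num) (by norm_num)
  unfold aa; linarith [show (4 : ℝ) ^ 4 = 256 by norm_num]

lemma BB_pos : (0 : ℝ) < BB := by unfold BB; positivity

lemma real_mul_unit {c : ℝ} {u : ℂ} (hc : 0 ≤ c) (hu : ‖u‖ = 1) :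
    (c : ℂ) * u = (‖(c : ℂ) * u‖ : ℂ) * u := by
  rw [norm_mul, hu, mul_one, Complex.norm_real, Real.norm_eq_abs, abs_of_nonneg hc]

namespace Orb

variable (O : Orb)

lemma brake_nonneg (t : ℕ) : 0 ≤ bA (O.θ t) * WW (O.x t) * (1 - O.β t) :=
  mul_nonneg (mul_nonneg (bA_nonneg _) (WW_nonneg _)) (sub_nonneg.2 (O.β_le t))

lemma brake_le (t : ℕ) : bA (O.θ t) * WW (O.x t) * (1 - O.β t) ≤ 1 :=
  mul_le_one₀ (mul_le_one₀ (bA_le_one _) (WW_nonneg _) (WW_le_one _)) (sub_nonneg.2 (O.β_le t))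
    (by linarith [O.β_nonneg t])

lemma step_le (t : ℕ) : O.θ (t + 1) ≤ O.θ t + 1 := by
  rw [O.θ_succ]; linarith [O.brake_nonneg t]

lemma le_step (t : ℕ) : O.θ t ≤ O.θ (t + 1) := by
  rw [O.θ_succ]; linarith [O.brake_le t]

lemma mono : Monotone O.θ := monotone_nat_of_le_succ O.le_step

variable {O}

lemma unit_of_A {t : ℕ} (h : bA (O.θ t) = 0) : O.θ (t + 1) = O.θ t + 1 := by
  rw [O.θ_succ, h]; ring

lemma unit_of_W {t : ℕ} (h : WW (O.x t) = 0) : O.θ (t + 1) = O.θ t + 1 := by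
  rw [O.θ_succ, h]; ring

lemma stay {t : ℕ} (hx : ∀ j, ‖O.x t j‖ ≤ 1 / 4) (hβ : O.β t = 0) (h : O.θ t ≤ 5) :
    O.θ (t + 1) ≤ 5 := by
  rcases le_total 4 (O.θ t) with h4 | h4
  · rw [O.θ_succ, bA_one h4 h, WW_one hx, hβ]; linarith
  · linarith [O.step_le t]

lemma kill {t : ℕ} (h1 : 6 ≤ O.θ t) (h2 : O.θ t ≤ 7) :
    O.θ (t + 1) = O.θ t + 1 ∧ ∀ j, O.x (t + 1) j = 0 ∧ O.s (t + 1) j = 0 := by
  refine ⟨unit_of_A (bA_zero_right (by linarith) (by linarith)), fun j => ?_⟩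
  have hc := chi_zero_right (j := j) (θ := O.θ t) (by linarith [cj_le j]) (by linarith)
  rw [O.x_succ, O.s_succ, hc.1, hc.2, bk_zero (by linarith) (by linarith), bkp_zero h1 h2]
  simp

lemma grow' {t : ℕ} {j : Fin 2} (hk : bk (O.θ t) = 1) (hc : bchi j (O.θ t) = 0) :
    min (aa / 2 * ‖O.x t j‖) (1 / 2) ≤ ‖O.x (t + 1) j‖ := by
  rw [O.x_succ, hk, hc]
  refine le_trans (le_of_eq ?_) (norm_sat_ge _)
  congr 1
  have := aa_ge
  simp only [mul_one, Complex.ofReal_zero, zero_mul, add_zero, norm_mul, Complex.norm_real,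
    Real.norm_eq_abs]
  rw [abs_of_nonneg (by linarith)]; ring

lemma grow {t : ℕ} {j : Fin 2} (h1 : cj j + 1 / 2 ≤ O.θ t) (h2 : O.θ t ≤ 11 / 2) :
    min (aa / 2 * ‖O.x t j‖) (1 / 2) ≤ ‖O.x (t + 1) j‖ :=
  grow' (bk_one (by linarith [cj_ge j]) h2) (chi_zero_right h1 (by linarith)).1

/-- the phase invariant at time `t` with phase `φ` -/
def Val (O : Orb) (z : ℕ → ℂ) (t : ℕ) (φ : ℂ) : Prop :=
  ‖φ‖ = 1 ∧ z t = (‖z t‖ : ℂ) * φ ∧ ∀ j,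
    (O.x t j = 0 ∨ ∃ (n : ℕ) (u : ℂ), n ≤ t ∧ ‖u‖ = 1 ∧ O.s t j = (1 / 2) ^ (n + 1) ∧
      O.x t j = (‖O.x t j‖ : ℂ) * u ∧ u ^ 2 ^ n = φ ^ 2) ∧
    (O.θ t < cj j + 1 / 2 → O.x t j = 0 ∧ O.s t j = 0)

variable {z : ℕ → ℂ}

lemma read1 {t : ℕ} {φ : ℂ} (h : O.Val z t φ) (j : Fin 2) :
    ∃ ρ : ℝ, 0 ≤ ρ ∧ (1 / 2 ≤ ‖O.x t j‖ → (1 / 4) ^ t ≤ ρ) ∧
      K1 (O.s t j, O.x t j) = (ρ : ℂ) * φ ^ 2 := by
  rcases (h.2.2 j).1 with h0 | ⟨n, u, hn, -, hs, hx, hu⟩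
  · refine ⟨0, le_rfl, fun h1 => ?_, ?_⟩
    · rw [h0] at h1; norm_num at h1
    · rw [K1_zero (by rw [h0]; norm_num)]; simp
  · obtain ⟨ρ, h1, h2, h3⟩ := K1_read n _ u hx (O.x_le t j)
    refine ⟨ρ, h1, fun h4 => le_trans ?_ (h2 h4), by rw [hs, h3, hu]⟩
    exact pow_le_pow_of_le_one (by norm_num) (by norm_num) hn

lemma read (hF : O.Fz z) {t : ℕ} {φ : ℂ} (h : O.Val z t φ) :
    ∃ ρ : ℝ, 0 ≤ ρ ∧ (∀ j, 1 / 2 ≤ ‖O.x t j‖ → (1 / 4) ^ t ≤ ρ) ∧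
      z (t + 1) = ((‖z t‖ ^ 2 + BB * ρ : ℝ) : ℂ) * φ ^ 2 := by
  obtain ⟨ρ₀, a0, b0, c0⟩ := read1 h 0
  obtain ⟨ρ₁, a1, b1, c1⟩ := read1 h 1
  refine ⟨ρ₀ + ρ₁, by linarith, fun j hj => ?_, ?_⟩
  · fin_cases j
    · linarith [b0 hj]
    · linarith [b1 hj]
  · rw [hF.z_succ, KK, c0, c1]
    nth_rewrite 1 [h.2.1]
    push_cast; ring

lemma read_norm (hF : O.Fz z) {t : ℕ} {φ : ℂ} (h : O.Val z t φ) :
    ‖z t‖ ^ 2 ≤ ‖z (t + 1)‖ ∧ ∀ j, 1 / 2 ≤ ‖O.x t j‖ → BB * (1 / 4) ^ t ≤ ‖z (t + 1)‖ := by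
  obtain ⟨ρ, h1, h2, h3⟩ := read hF h
  have hB := BB_pos
  have e : ‖z (t + 1)‖ = ‖z t‖ ^ 2 + BB * ρ := by
    rw [h3, norm_mul, norm_pow, h.1, Complex.norm_real, Real.norm_eq_abs,
      abs_of_nonneg (by positivity)]; ring
  rw [e]
  refine ⟨by nlinarith, fun j hj => ?_⟩
  have := h2 j hj
  nlinarith [sq_nonneg ‖z t‖]

lemma val_step (hF : O.Fz z) {t : ℕ} {φ : ℂ} (h : O.Val z t φ) (h1 : 1 ≤ O.θ t)
    (h7 : O.θ t ≤ 7) : O.Val z (t + 1) (φ ^ 2) := by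
  have hφ : ‖φ ^ 2‖ = 1 := by rw [norm_pow, h.1, one_pow]
  refine ⟨hφ, ?_, fun j => ⟨?_, fun hθ => ?_⟩⟩
  · obtain ⟨ρ, h1, -, h3⟩ := read hF h
    have hB := BB_pos
    rw [h3]; exact real_mul_unit (by positivity) hφ
  · have hj1 := cj_ge j
    have hj2 := cj_le j
    by_cases hθ : O.θ t < cj j + 1 / 2
    · obtain ⟨hx, hs⟩ := (h.2.2 j).2 hθ
      by_cases hc : bchi j (O.θ t) = 0
      · left; rw [O.x_succ, hx, hc]; simp
      · right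
        have hcp := bchip_of_bchi (by rw [abs_le]; constructor <;> linarith) hc
        refine ⟨1, φ ^ 2, by omega, hφ, by rw [O.s_succ, hs, hcp]; norm_num, ?_, by norm_num⟩
        obtain ⟨r, hr, -, -, hw⟩ := hF.w_eq t
        obtain ⟨r', hr', hsat⟩ := sat_eq (((aa * bk (O.θ t) : ℝ) : ℂ) * O.x t j +
          ((bchi j (O.θ t) : ℝ) : ℂ) * O.w t)
        have e : O.x (t + 1) j = ((r' * bchi j (O.θ t) * r * ‖z t‖ ^ 2 : ℝ) : ℂ) * φ ^ 2 := by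
          rw [O.x_succ, hsat, hx, hw]
          nth_rewrite 1 [h.2.1]
          push_cast; ring
        rw [e]
        have := bchi_nonneg j (O.θ t)
        exact real_mul_unit (by positivity) hφ
    · push Not at hθ
      have hc := chi_zero_right hθ (by linarith)
      rcases (h.2.2 j).1 with h0 | ⟨n, u, hn, hu1, hs, hx, hu⟩
      · left; rw [O.x_succ, h0, hc.1]; simp
      · by_cases hk : O.θ t ≤ 23 / 4
        · right
          refine ⟨n + 1, u, by omega, hu1, ?_, ?_, ?_⟩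
          · rw [O.s_succ, hs, hc.2, bkp_one (by linarith) hk]; ring
          · obtain ⟨r', hr', hsat⟩ := sat_eq (((aa * bk (O.θ t) : ℝ) : ℂ) * O.x t j +
              ((bchi j (O.θ t) : ℝ) : ℂ) * O.w t)
            have e : O.x (t + 1) j = ((r' * (aa * bk (O.θ t)) * ‖O.x t j‖ : ℝ) : ℂ) * u := by
              rw [O.x_succ, hsat, hc.1]
              nth_rewrite 1 [hx]
              push_cast; ring
            rw [e]
            have := bk_nonneg (O.θ t)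
            have := aa_ge
            exact real_mul_unit (by positivity) hu1
          · rw [pow_succ, pow_mul, hu]
        · left; rw [O.x_succ, hc.1, bk_zero (by linarith) (by linarith)]; simp
  · have hj2 := cj_le j
    have hle := O.le_step t
    have hu := unit_of_A (bA_zero_left (θ := O.θ t) (by linarith) (by linarith))
    obtain ⟨hx, hs⟩ := (h.2.2 j).2 (by linarith)
    have hc := chi_zero_left (j := j) (θ := O.θ t) (by linarith) (by linarith)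
    rw [O.x_succ, O.s_succ, hx, hs, hc.1, hc.2]; simp

/-- reset state at time zero -/
def Reset (O : Orb) : Prop := 1 ≤ O.θ 0 ∧ O.θ 0 < 2 ∧ ∀ j, O.x 0 j = 0 ∧ O.s 0 j = 0

lemma val_all (hF : O.Fz z) (hR : O.Reset) {D : ℕ} (hD : ∀ t < D, O.θ t ≤ 7) :
    ∀ t ≤ D, ∃ φ, O.Val z t φ := by
  intro t
  induction t with
  | zero =>
    intro _
    by_cases h0 : z 0 = 0
    · exact ⟨1, by simp, by simp [h0], fun j => ⟨Or.inl (hR.2.2 j).1, fun _ => hR.2.2 j⟩⟩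
    · have : (‖z 0‖ : ℂ) ≠ 0 := by simpa using h0
      refine ⟨z 0 / ‖z 0‖, by simp [h0], by field_simp,
        fun j => ⟨Or.inl (hR.2.2 j).1, fun _ => hR.2.2 j⟩⟩
  | succ t ih =>
    intro ht
    obtain ⟨φ, hφ⟩ := ih (by omega)
    exact ⟨_, val_step hF hφ (hR.1.trans (O.mono (Nat.zero_le t))) (hD t (by omega))⟩

end Orb

end Vale.Agent.P103
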